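import Vale.Agent.Lib.P126.Gibbs

/-!
The abstract single scale argument on a finite index set.
-/

namespace Vale.Agent.Lib.P126

open Finset

variable {ι : Type*} [Fintype ι]

/-- The standing assumptions on the family of test functions. -/
structure FamilyData (F : Set (ι → ℝ)) (R : ℝ) : Prop where
  convex : Convex ℝ F
  neg_mem : ∀ f ∈ F, -f ∈ F
  zero_mem : (0 : ι → ℝ) ∈ F
  bound : ∀ f ∈ F, ∀ i, |f i| ≤ R

/-- One multiplicative weights step. -/
lemma mw_step {F : Set (ι → ℝ)} {R : ℝ} (hF : FamilyData F R) (hR : 0 < R) {g : ℝ} (hg : 0 < g)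
    (hgR : g ≤ 2 * R) {μ π : ι → ℝ} (hμ : IsProb μ) (hπ : IsPosProb π) {y : ι → ℝ} (hy : y ∈ F)
    (hgap : g < avg μ y - avg π y) :
    kl μ (tilt π ((g / (2 * R ^ 2)) • y)) ≤ kl μ π - g ^ 2 / (4 * R ^ 2) := by
  set η := g / (2 * R ^ 2) with hη
  have hηpos : 0 < η := by positivity
  have hc : η * R ≤ 1 := by
    rw [hη]
    rw [show g / (2 * R ^ 2) * R = g / (2 * R) by field_simp]
    rw [div_le_one (by positivity)]
    exact hgR
  have hf : ∀ i, |(η • y) i| ≤ η * R := by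
    intro i
    simp only [Pi.smul_apply, smul_eq_mul, abs_mul, abs_of_pos hηpos]
    exact mul_le_mul_of_nonneg_left (hF.bound y hy i) hηpos.le
  have h1 := kl_tilt_le hμ hπ hc hf
  rw [avg_smul_right, avg_smul_right] at h1
  have h2 : η * (avg μ y - avg π y) ≥ η * g := mul_le_mul_of_nonneg_left hgap.le hηpos.le
  have h3 : η * g - (η * R) ^ 2 = g ^ 2 / (4 * R ^ 2) := by
    rw [hη]; field_simp; ring
  linarith

/-- Multiplicative weights: a target of small relative entropy is approximated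
by a tilt with a function in a multiple of the family. -/
lemma mw {F : Set (ι → ℝ)} {R : ℝ} (hF : FamilyData F R) (hR : 0 < R) {g : ℝ} (hg : 0 < g)
    (hgR : g ≤ 2 * R) {μ : ι → ℝ} (hμ : IsProb μ) :
    ∀ (N : ℕ) (π : ι → ℝ), IsPosProb π → kl μ π ≤ N * (g ^ 2 / (4 * R ^ 2)) →
      ∃ f₀ ∈ F, ∀ f ∈ F, avg μ f - avg (tilt π ((g / (2 * R ^ 2) * N) • f₀)) f ≤ g := by
  have hgain : 0 < g ^ 2 / (4 * R ^ 2) := by positivity
  intro N
  induction N with
  | zero =>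
    intro π hπ hkl
    refine ⟨0, hF.zero_mem, ?_⟩
    intro f hf
    by_contra hcon
    push Not at hcon
    have hsm : ((g / (2 * R ^ 2) * ((0 : ℕ) : ℝ)) • (0 : ι → ℝ)) = 0 := by simp
    rw [hsm, tilt_zero hπ] at hcon
    have h1 := mw_step hF hR hg hgR hμ hπ hf hcon
    have h2 := kl_nonneg hμ (isPosProb_tilt hπ ((g / (2 * R ^ 2)) • f))
    simp only [Nat.cast_zero, zero_mul] at hkl
    linarith
  | succ N ih =>
    intro π hπ hkl
    by_cases hstop : ∀ f ∈ F, avg μ f - avg π f ≤ g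
    · refine ⟨0, hF.zero_mem, ?_⟩
      have hsm : ((g / (2 * R ^ 2) * ((N + 1 : ℕ) : ℝ)) • (0 : ι → ℝ)) = 0 := by simp
      rw [hsm, tilt_zero hπ]
      exact hstop
    · push Not at hstop
      obtain ⟨y, hy, hgap⟩ := hstop
      have h1 := mw_step hF hR hg hgR hμ hπ hy hgap
      have h2 : kl μ (tilt π ((g / (2 * R ^ 2)) • y)) ≤ N * (g ^ 2 / (4 * R ^ 2)) := by
        push_cast at hkl
        nlinarith
      obtain ⟨f₁, hf₁, hmain⟩ := ih _ (isPosProb_tilt hπ _) h2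
      have hNpos : (0 : ℝ) < (N : ℝ) + 1 := by positivity
      refine ⟨(((N : ℝ) + 1)⁻¹) • y + (((N : ℝ) / ((N : ℝ) + 1))) • f₁, ?_, ?_⟩
      · refine hF.convex hy hf₁ (by positivity) (by positivity) ?_
        field_simp
        ring
      · intro f hf
        have h3 := hmain f hf
        rw [tilt_tilt hπ] at h3
        have heq : (g / (2 * R ^ 2)) • y + (g / (2 * R ^ 2) * (N : ℝ)) • f₁ =
            (g / (2 * R ^ 2) * ((N + 1 : ℕ) : ℝ)) •
              (((N : ℝ) + 1)⁻¹ • y + ((N : ℝ) / ((N : ℝ) + 1)) • f₁) := by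
          funext i
          simp only [Pi.add_apply, Pi.smul_apply, smul_eq_mul, Nat.cast_add, Nat.cast_one]
          field_simp
        rw [heq] at h3
        exact h3

/-- One stage: pass from a target to a tilted one at a net point. -/
lemma stage {F : Set (ι → ℝ)} {R : ℝ} (hF : FamilyData F R) (hR : 0 < R) {g : ℝ} (hg : 0 < g)
    (hgR : g ≤ 2 * R) {ε : ℝ} {Q : Finset (ι → ℝ)}
    (hQ : ∀ f ∈ F, ∃ q ∈ Q, ∀ i, |f i - q i| ≤ ε) {μ π : ι → ℝ} (hμ : IsProb μ) (hπ : IsPosProb π)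
    {N : ℕ} (hN : kl μ π ≤ N * (g ^ 2 / (4 * R ^ 2))) :
    ∃ q ∈ Q, ∃ μ', IsProb μ' ∧
      kl μ' (tilt π ((g / (2 * R ^ 2) * N) • q)) ≤ 2 * (g / (2 * R ^ 2) * N * ε) ∧
      ∀ f ∈ F, avg μ f - avg μ' f ≤ g := by
  obtain ⟨f₀, hf₀, hmain⟩ := mw hF hR hg hgR hμ N π hπ hN
  obtain ⟨q, hq, hnear⟩ := hQ f₀ hf₀
  set s := g / (2 * R ^ 2) * N with hs
  have hspos : 0 ≤ s := by positivity
  refine ⟨q, hq, tilt π (s • f₀), (isPosProb_tilt hπ _).isProb, ?_, hmain⟩
  have heq : tilt π (s • f₀) = tilt (tilt π (s • q)) (s • (f₀ - q)) := by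
    rw [tilt_tilt hπ]
    congr 1
    funext i
    simp only [Pi.add_apply, Pi.smul_apply, Pi.sub_apply, smul_eq_mul]
    ring
  rw [heq]
  refine kl_tilt_self_le (isPosProb_tilt hπ _) ?_
  intro i
  simp only [Pi.smul_apply, Pi.sub_apply, smul_eq_mul, abs_mul, abs_of_nonneg hspos]
  exact mul_le_mul_of_nonneg_left (hnear i) hspos

/-- The state of the iteration. -/
def State (F : Set (ι → ℝ)) (A : Finset ι) (π : ι → ℝ) (τ Δ : ℝ) : Prop :=
  IsPosProb π ∧ ∃ m : ι → ι → ℝ, ∀ x ∈ A, IsProb (m x) ∧ kl (m x) π ≤ τ ∧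
    ∀ f ∈ F, avg (m x) f - f x ≤ Δ

open Classical in
/-- A stage for a whole set of points, with pigeonhole. -/
lemma state_step {F : Set (ι → ℝ)} {R : ℝ} (hF : FamilyData F R) (hR : 0 < R) {g : ℝ} (hg : 0 < g)
    (hgR : g ≤ 2 * R) {ε : ℝ} {Q : Finset (ι → ℝ)}
    (hQ : ∀ f ∈ F, ∃ q ∈ Q, ∀ i, |f i - q i| ≤ ε) {A : Finset ι} {π : ι → ℝ} {τ Δ : ℝ}
    (hS : State F A π τ Δ) {N : ℕ} (hN : τ ≤ N * (g ^ 2 / (4 * R ^ 2))) :
    ∃ (A' : Finset ι) (π' : ι → ℝ), A.card ≤ Q.card * A'.card ∧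
      State F A' π' (2 * (g / (2 * R ^ 2) * N * ε)) (Δ + g) := by
  obtain ⟨hπ, m, hm⟩ := hS
  have hchoice : ∀ x ∈ A, ∃ q ∈ Q, ∃ μ', IsProb μ' ∧
      kl μ' (tilt π ((g / (2 * R ^ 2) * N) • q)) ≤ 2 * (g / (2 * R ^ 2) * N * ε) ∧
      ∀ f ∈ F, avg (m x) f - avg μ' f ≤ g := by
    intro x hx
    obtain ⟨h1, h2, _⟩ := hm x hx
    exact stage hF hR hg hgR hQ h1 hπ (h2.trans hN)
  -- the fibres
  let fib : (ι → ℝ) → Finset ι := fun q => A.filter (fun x => ∃ μ', IsProb μ' ∧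
      kl μ' (tilt π ((g / (2 * R ^ 2) * N) • q)) ≤ 2 * (g / (2 * R ^ 2) * N * ε) ∧
      ∀ f ∈ F, avg (m x) f - avg μ' f ≤ g)
  have hcover : A ⊆ Q.biUnion fib := by
    intro x hx
    obtain ⟨q, hq, hp⟩ := hchoice x hx
    exact Finset.mem_biUnion.mpr ⟨q, hq, Finset.mem_filter.mpr ⟨hx, hp⟩⟩
  have hcard : A.card ≤ ∑ q ∈ Q, (fib q).card :=
    (Finset.card_le_card hcover).trans Finset.card_biUnion_le
  have hQne : Q.Nonempty := by
    obtain ⟨q, hq, _⟩ := hQ 0 hF.zero_mem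
    exact ⟨q, hq⟩
  obtain ⟨q₀, hq₀, hmax⟩ := Finset.exists_max_image Q (fun q => (fib q).card) hQne
  refine ⟨fib q₀, tilt π ((g / (2 * R ^ 2) * N) • q₀), ?_, isPosProb_tilt hπ _, ?_⟩
  · calc A.card ≤ ∑ q ∈ Q, (fib q).card := hcard
      _ ≤ ∑ _q ∈ Q, (fib q₀).card := Finset.sum_le_sum hmax
      _ = Q.card * (fib q₀).card := by simp
  · have hch : ∀ x ∈ fib q₀, ∃ μ', IsProb μ' ∧
        kl μ' (tilt π ((g / (2 * R ^ 2) * N) • q₀)) ≤ 2 * (g / (2 * R ^ 2) * N * ε) ∧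
        ∀ f ∈ F, avg (m x) f - avg μ' f ≤ g := fun x hx => (Finset.mem_filter.mp hx).2
    choose! m' hm' using hch
    refine ⟨m', ?_⟩
    intro x hx
    obtain ⟨h1, h2, h3⟩ := hm' x hx
    refine ⟨h1, h2, ?_⟩
    intro f hf
    have hxA : x ∈ A := (Finset.mem_filter.mp hx).1
    have h4 := (hm x hxA).2.2 f hf
    have h5 := h3 (-f) (hF.neg_mem f hf)
    rw [avg_neg_right, avg_neg_right] at h5
    linarith

/-- Iterating the stages, with the entropy budget decaying geometrically. -/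
lemma iterate_stage {F : Set (ι → ℝ)} {R : ℝ} (hF : FamilyData F R) (hR : 0 < R) {g : ℝ}
    (hg : 0 < g) (hgR : g ≤ 2 * R) {B : ℝ} (hB : 1 ≤ B) {Q : Finset (ι → ℝ)}
    (hQ : ∀ f ∈ F, ∃ q ∈ Q, ∀ i, |f i - q i| ≤ g / (8 * B))
    {A₀ : Finset ι} {π₀ : ι → ℝ} {τ₀ Δ₀ : ℝ} (hτ₀ : 0 ≤ τ₀) (hS : State F A₀ π₀ τ₀ Δ₀) :
    ∀ t : ℕ, ∃ (A : Finset ι) (π : ι → ℝ), A₀.card ≤ Q.card ^ t * A.card ∧
      State F A π (((2 * B)⁻¹) ^ t * τ₀ + g ^ 2 / (4 * R ^ 2)) (Δ₀ + t * g) := by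
  have hgain : 0 < g ^ 2 / (4 * R ^ 2) := by positivity
  have hBpos : 0 < B := by linarith
  intro t
  induction t with
  | zero =>
    refine ⟨A₀, π₀, by simp, ?_⟩
    obtain ⟨h1, m, hm⟩ := hS
    refine ⟨h1, m, fun x hx => ?_⟩
    obtain ⟨h2, h3, h4⟩ := hm x hx
    refine ⟨h2, by simp; linarith, fun f hf => by simpa using h4 f hf⟩
  | succ t ih =>
    obtain ⟨A, π, hcard, hS'⟩ := ih
    set τ := ((2 * B)⁻¹) ^ t * τ₀ + g ^ 2 / (4 * R ^ 2) with hτ
    have hτnn : 0 ≤ τ := by positivity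
    set gain := g ^ 2 / (4 * R ^ 2) with hgaindef
    set N := ⌈τ / gain⌉₊ with hNdef
    have hN1 : τ ≤ N * gain := by
      have := Nat.le_ceil (τ / gain)
      rwa [div_le_iff₀ hgain] at this
    have hN2 : (N : ℝ) < τ / gain + 1 := Nat.ceil_lt_add_one (by positivity)
    obtain ⟨A', π', hcard', hS''⟩ := state_step hF hR hg hgR hQ hS' hN1
    refine ⟨A', π', ?_, ?_⟩
    · calc A₀.card ≤ Q.card ^ t * A.card := hcard
        _ ≤ Q.card ^ t * (Q.card * A'.card) := Nat.mul_le_mul_left _ hcard'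
        _ = Q.card ^ (t + 1) * A'.card := by ring
    · -- numerical comparison of the budgets
      have hbudget : 2 * (g / (2 * R ^ 2) * N * (g / (8 * B))) ≤
          ((2 * B)⁻¹) ^ (t + 1) * τ₀ + gain := by
        have h1 : 2 * (g / (2 * R ^ 2) * N * (g / (8 * B))) = (N : ℝ) * gain * (2 * B)⁻¹ := by
          rw [hgaindef]; field_simp; ring
        have h2 : (N : ℝ) * gain ≤ τ + gain := by
          have := mul_lt_mul_of_pos_right hN2 hgain
          rw [add_mul, div_mul_cancel₀ _ hgain.ne', one_mul] at this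
          exact this.le
        rw [h1]
        have h3 : 0 < (2 * B)⁻¹ := by positivity
        have h3' : (2 * B)⁻¹ ≤ 1 / 2 := by
          rw [inv_le_comm₀ (by positivity) (by norm_num)]
          norm_num
          linarith
        have h4 : (N : ℝ) * gain * (2 * B)⁻¹ ≤ (τ + gain) * (2 * B)⁻¹ :=
          mul_le_mul_of_nonneg_right h2 h3.le
        have h5 : (τ + gain) * (2 * B)⁻¹ = ((2 * B)⁻¹) ^ (t + 1) * τ₀ + 2 * gain * (2 * B)⁻¹ := by
          rw [hτ, pow_succ]; ring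
        have h6 : 2 * gain * (2 * B)⁻¹ ≤ gain := by
          nlinarith
        linarith
      obtain ⟨h1, m, hm⟩ := hS''
      refine ⟨h1, m, fun x hx => ?_⟩
      obtain ⟨h2, h3, h4⟩ := hm x hx
      refine ⟨h2, h3.trans hbudget, fun f hf => ?_⟩
      have := h4 f hf
      push_cast
      linarith

open Classical in
/-- The final compression: a family of points with common centre of small entropy is small. -/
lemma compress {F : Set (ι → ℝ)} {R : ℝ} (hF : FamilyData F R) (hR : 0 < R) {g : ℝ} (hg : 0 < g)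
    (hgR : g ≤ 4 * R) {ε : ℝ} (hε : ε ≤ g / 4) {Q : Finset (ι → ℝ)} (hQF : ∀ q ∈ Q, q ∈ F)
    (hQ : ∀ f ∈ F, ∃ q ∈ Q, ∀ i, |f i - q i| ≤ ε)
    (hsep : ∀ i j : ι, i ≠ j → ∃ f ∈ F, 1 < f i - f j) {Δ : ℝ} (hΔ : 2 * Δ + 2 * g ≤ 1) :
    ∀ (N : ℕ) (π : ι → ℝ) (A : Finset ι) (m : ι → ι → ℝ), IsPosProb π →
      (∀ x ∈ A, IsProb (m x) ∧ kl (m x) π ≤ N * (g ^ 2 / (16 * R ^ 2)) ∧
        ∀ f ∈ F, avg (m x) f - f x ≤ Δ) →
      A.card ≤ (Q.card + 1) ^ N := by
  have hgain : 0 < g ^ 2 / (16 * R ^ 2) := by positivity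
  set η := g / (4 * R ^ 2) with hη
  have hηpos : 0 < η := by positivity
  have hc : η * R ≤ 1 := by
    rw [hη]
    rw [show g / (4 * R ^ 2) * R = g / (4 * R) by field_simp]
    rw [div_le_one (by positivity)]
    exact hgR
  -- the common step
  have hstep : ∀ (π : ι → ℝ) (μ : ι → ℝ), IsPosProb π → IsProb μ → ∀ f ∈ F,
      g < avg μ f - avg π f → ∃ q ∈ Q, kl μ (tilt π (η • q)) ≤ kl μ π - g ^ 2 / (16 * R ^ 2) := by
    intro π μ hπ hμ f hf hgap
    obtain ⟨q, hq, hnear⟩ := hQ f hf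
    refine ⟨q, hq, ?_⟩
    have hbd : ∀ i, |(η • q) i| ≤ η * R := by
      intro i
      simp only [Pi.smul_apply, smul_eq_mul, abs_mul, abs_of_pos hηpos]
      exact mul_le_mul_of_nonneg_left (hF.bound q (hQF q hq) i) hηpos.le
    have h1 := kl_tilt_le hμ hπ hc hbd
    rw [avg_smul_right, avg_smul_right] at h1
    have h2 : avg μ f - avg μ q ≤ ε := by
      rw [← avg_sub_right]
      exact avg_le_of_le hμ (fun i => (le_abs_self _).trans (hnear i))
    have h3 : avg π q - avg π f ≤ ε := by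
      rw [← avg_sub_right]
      refine avg_le_of_le hπ.isProb (fun i => ?_)
      have := (abs_le.mp (hnear i)).1
      simp only [Pi.sub_apply]
      linarith
    have h4 : g / 2 ≤ avg μ q - avg π q := by linarith
    have h5 : η * (g / 2) ≤ η * (avg μ q - avg π q) := mul_le_mul_of_nonneg_left h4 hηpos.le
    have h6 : η * (g / 2) - (η * R) ^ 2 = g ^ 2 / (16 * R ^ 2) := by
      rw [hη]; field_simp; ring
    linarith
  -- points which have stopped are unique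
  have hstop : ∀ (π : ι → ℝ) (A : Finset ι) (m : ι → ι → ℝ),
      (∀ x ∈ A, IsProb (m x) ∧ ∀ f ∈ F, avg (m x) f - f x ≤ Δ) →
      (∀ x ∈ A, ∀ f ∈ F, avg (m x) f - avg π f ≤ g) → A.card ≤ 1 := by
    intro π A m h1 h2
    refine Finset.card_le_one.mpr (fun a ha b hb => ?_)
    by_contra hne
    obtain ⟨f, hf, hgap⟩ := hsep a b hne
    have hnf := hF.neg_mem f hf
    have e1 := (h1 a ha).2 (-f) hnf
    have e2 := h2 a ha f hf
    have e3 := h2 b hb (-f) hnf
    have e4 := (h1 b hb).2 f hf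
    rw [avg_neg_right] at e1 e3
    rw [avg_neg_right] at e3
    simp only [Pi.neg_apply] at e1
    linarith
  intro N
  induction N with
  | zero =>
    intro π A m hπ hA
    have : A.card ≤ 1 := by
      refine hstop π A m (fun x hx => ⟨(hA x hx).1, (hA x hx).2.2⟩) ?_
      intro x hx f hf
      by_contra hcon
      push Not at hcon
      obtain ⟨q, _, hq⟩ := hstep π (m x) hπ (hA x hx).1 f hf hcon
      have h1 := kl_nonneg (hA x hx).1 (isPosProb_tilt hπ (η • q))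
      have h2 := (hA x hx).2.1
      simp only [Nat.cast_zero, zero_mul] at h2
      linarith
    simpa using this
  | succ N ih =>
    intro π A m hπ hA
    let S := A.filter (fun x => ∀ f ∈ F, avg (m x) f - avg π f ≤ g)
    have hScard : S.card ≤ 1 := by
      refine hstop π S m (fun x hx => ?_) (fun x hx => (Finset.mem_filter.mp hx).2)
      have hxA := (Finset.mem_filter.mp hx).1
      exact ⟨(hA x hxA).1, (hA x hxA).2.2⟩
    let fib : (ι → ℝ) → Finset ι := fun q =>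
      A.filter (fun x => kl (m x) (tilt π (η • q)) ≤ N * (g ^ 2 / (16 * R ^ 2)))
    have hfib : ∀ q ∈ Q, (fib q).card ≤ (Q.card + 1) ^ N := by
      intro q _
      refine ih (tilt π (η • q)) (fib q) m (isPosProb_tilt hπ _) (fun x hx => ?_)
      obtain ⟨hxA, hx2⟩ := Finset.mem_filter.mp hx
      exact ⟨(hA x hxA).1, hx2, (hA x hxA).2.2⟩
    have hcover : A ⊆ S ∪ Q.biUnion fib := by
      intro x hx
      by_cases hxS : x ∈ S
      · exact Finset.mem_union_left _ hxS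
      · refine Finset.mem_union_right _ ?_
        have : ¬ ∀ f ∈ F, avg (m x) f - avg π f ≤ g := fun h =>
          hxS (Finset.mem_filter.mpr ⟨hx, h⟩)
        push Not at this
        obtain ⟨f, hf, hgap⟩ := this
        obtain ⟨q, hq, hkl⟩ := hstep π (m x) hπ (hA x hx).1 f hf hgap
        refine Finset.mem_biUnion.mpr ⟨q, hq, Finset.mem_filter.mpr ⟨hx, ?_⟩⟩
        have := (hA x hx).2.1
        push_cast at this
        nlinarith
    calc A.card ≤ (S ∪ Q.biUnion fib).card := Finset.card_le_card hcover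
      _ ≤ S.card + (Q.biUnion fib).card := Finset.card_union_le _ _
      _ ≤ 1 + ∑ q ∈ Q, (fib q).card := Nat.add_le_add hScard Finset.card_biUnion_le
      _ ≤ 1 + ∑ _q ∈ Q, (Q.card + 1) ^ N := by
          exact Nat.add_le_add_left (Finset.sum_le_sum hfib) 1
      _ = 1 + Q.card * (Q.card + 1) ^ N := by simp
      _ ≤ (Q.card + 1) ^ (N + 1) := by
          have : 1 ≤ (Q.card + 1) ^ N := Nat.one_le_pow _ _ (by omega)
          rw [pow_succ]
          nlinarith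

/-- The uniform probability vector. -/
lemma isPosProb_unif [Nonempty ι] : IsPosProb (fun _ : ι => ((Fintype.card ι : ℝ))⁻¹) := by
  have hc : (0 : ℝ) < Fintype.card ι := by exact_mod_cast Fintype.card_pos
  refine ⟨fun _ => by positivity, ?_⟩
  simp [Finset.card_univ]

/-- The relative entropy against the uniform vector of a vector with bounded density. -/
lemma kl_unif_le [Nonempty ι] {μ : ι → ℝ} (hμ : IsProb μ) {D : ℝ}
    (h : ∀ i, μ i ≤ D / Fintype.card ι) :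
    kl μ (fun _ : ι => ((Fintype.card ι : ℝ))⁻¹) ≤ Real.log D := by
  have hc : (0 : ℝ) < Fintype.card ι := by exact_mod_cast Fintype.card_pos
  have key : ∀ i, μ i * Real.log (μ i / ((Fintype.card ι : ℝ))⁻¹) ≤ μ i * Real.log D := by
    intro i
    rcases (hμ.1 i).eq_or_lt with h0 | hpos
    · rw [← h0]; simp
    · refine mul_le_mul_of_nonneg_left ?_ hpos.le
      refine Real.log_le_log (by positivity) ?_
      rw [div_inv_eq_mul]
      have := h i
      rwa [le_div_iff₀ hc] at this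
  calc kl μ (fun _ : ι => ((Fintype.card ι : ℝ))⁻¹)
      ≤ ∑ i, μ i * Real.log D := Finset.sum_le_sum (fun i _ => key i)
    _ = Real.log D := by rw [← Finset.sum_mul, hμ.2, one_mul]

open Classical in
/-- The counting half of the density lemma: the points that are not near a bounded density
average are at most half of all points. -/
lemma good_large {F : Set (ι → ℝ)} {R : ℝ} (hF : FamilyData F R) [Nonempty ι] {δ ε : ℝ}
    (hδ : 0 < δ) (hε : 2 * ε ≤ δ / 2) {Q : Finset (ι → ℝ)}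
    (hQ : ∀ f ∈ F, ∃ q ∈ Q, ∀ i, |f i - q i| ≤ ε)
    (hdich : ∀ x : ι, (∃ μ, IsProb μ ∧ (∀ i, μ i ≤ (2 * Q.card : ℝ) / Fintype.card ι) ∧
        ∀ f ∈ F, avg μ f - f x ≤ δ) ∨
      (∃ f ∈ F, ∀ μ, IsProb μ → (∀ i, μ i ≤ (2 * Q.card : ℝ) / Fintype.card ι) →
        avg μ f < f x - δ)) :
    ∃ A : Finset ι, Fintype.card ι ≤ 2 * A.card ∧ ∀ x ∈ A, ∃ μ, IsProb μ ∧
      (∀ i, μ i ≤ (2 * Q.card : ℝ) / Fintype.card ι) ∧ ∀ f ∈ F, avg μ f - f x ≤ δ := by
  have hQne : Q.Nonempty := by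
    obtain ⟨q, hq, _⟩ := hQ 0 hF.zero_mem
    exact ⟨q, hq⟩
  have hQpos : 0 < Q.card := Finset.card_pos.mpr hQne
  have hQposR : (0 : ℝ) < Q.card := by exact_mod_cast hQpos
  have hc : (0 : ℝ) < Fintype.card ι := by exact_mod_cast Fintype.card_pos
  set D : ℝ := (2 * Q.card : ℝ) / Fintype.card ι with hD
  let Good : Finset ι := Finset.univ.filter (fun x => ∃ μ, IsProb μ ∧ (∀ i, μ i ≤ D) ∧
      ∀ f ∈ F, avg μ f - f x ≤ δ)
  let Bad : Finset ι := Finset.univ.filter (fun x => ¬ ∃ μ, IsProb μ ∧ (∀ i, μ i ≤ D) ∧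
      ∀ f ∈ F, avg μ f - f x ≤ δ)
  have hsplit : Good.card + Bad.card = Fintype.card ι := by
    have := Finset.card_filter_add_card_filter_not (s := (Finset.univ : Finset ι))
      (fun x => ∃ μ, IsProb μ ∧ (∀ i, μ i ≤ D) ∧ ∀ f ∈ F, avg μ f - f x ≤ δ)
    rw [Finset.card_univ] at this
    exact this
  -- classes of bad points
  let W : ι → (ι → ℝ) → Prop := fun x f => f ∈ F ∧
    ∀ μ, IsProb μ → (∀ i, μ i ≤ D) → avg μ f < f x - δ
  let cls : (ι → ℝ) → Finset ι := fun q =>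
    Bad.filter (fun x => ∃ f, W x f ∧ ∀ i, |f i - q i| ≤ ε)
  have hcover : Bad ⊆ Q.biUnion cls := by
    intro x hx
    have hxb := (Finset.mem_filter.mp hx).2
    rcases hdich x with h | ⟨f, hf, hw⟩
    · exact absurd h hxb
    · obtain ⟨q, hq, hnear⟩ := hQ f hf
      exact Finset.mem_biUnion.mpr ⟨q, hq, Finset.mem_filter.mpr ⟨hx, f, ⟨hf, hw⟩, hnear⟩⟩
  have hcls : ∀ q ∈ Q, 2 * Q.card * (cls q).card ≤ Fintype.card ι := by
    intro q _
    by_cases hne : (cls q).Nonempty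
    · obtain ⟨x₀, hx₀, hmin⟩ := Finset.exists_min_image (cls q) q hne
      obtain ⟨f₀, ⟨hf₀, hw₀⟩, hnear₀⟩ := (Finset.mem_filter.mp hx₀).2
      let T : Finset ι := Finset.univ.filter (fun i => f₀ x₀ - δ / 2 ≤ f₀ i)
      have hsub : cls q ⊆ T := by
        intro x hx
        refine Finset.mem_filter.mpr ⟨Finset.mem_univ _, ?_⟩
        have h1 := hmin x hx
        have h2 := (abs_le.mp (hnear₀ x)).1
        have h3 := (abs_le.mp (hnear₀ x₀)).2
        linarith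
      have hTne : T.Nonempty := hne.mono hsub
      have hTpos : 0 < T.card := Finset.card_pos.mpr hTne
      have hTposR : (0 : ℝ) < T.card := by exact_mod_cast hTpos
      refine le_trans (Nat.mul_le_mul_left _ (Finset.card_le_card hsub)) ?_
      by_contra hcon
      push Not at hcon
      have hcon' : (Fintype.card ι : ℝ) < 2 * Q.card * T.card := by exact_mod_cast hcon
      let μ : ι → ℝ := fun i => if i ∈ T then (T.card : ℝ)⁻¹ else 0
      have hμ : IsProb μ := by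
        refine ⟨fun i => ?_, ?_⟩
        · by_cases h : i ∈ T <;> simp [μ, h]
        · have : ∑ i, μ i = ∑ i ∈ T, (T.card : ℝ)⁻¹ := by
            simp only [μ]
            rw [Finset.sum_ite_mem]
            simp
          rw [this]
          simp [hTposR.ne']
      have hμD : ∀ i, μ i ≤ D := by
        intro i
        have hDpos : 0 < D := by positivity
        by_cases h : i ∈ T
        · simp only [μ, h, if_true]
          rw [hD, inv_le_comm₀ hTposR (by positivity), inv_div, div_le_iff₀ (by positivity)]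
          linarith
        · simp only [μ, h, if_false]
          exact hDpos.le
      have hlow : f₀ x₀ - δ / 2 ≤ avg μ f₀ := by
        have : avg μ f₀ = ∑ i ∈ T, (T.card : ℝ)⁻¹ * f₀ i := by
          unfold avg
          simp only [μ, ite_mul, zero_mul]
          rw [Finset.sum_ite_mem]
          simp
        rw [this, ← Finset.mul_sum]
        have h2 : (T.card : ℝ) * (f₀ x₀ - δ / 2) ≤ ∑ i ∈ T, f₀ i := by
          have := Finset.card_nsmul_le_sum T f₀ (f₀ x₀ - δ / 2)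
            (fun i hi => (Finset.mem_filter.mp hi).2)
          simpa [nsmul_eq_mul] using this
        rw [inv_mul_eq_div, le_div_iff₀ hTposR]
        linarith
      have := hw₀ μ hμ hμD
      linarith
    · rw [Finset.not_nonempty_iff_eq_empty.mp hne]
      simp
  refine ⟨Good, ?_, fun x hx => (Finset.mem_filter.mp hx).2⟩
  have hBad : 2 * Bad.card ≤ Fintype.card ι := by
    have h1 : Bad.card ≤ ∑ q ∈ Q, (cls q).card :=
      (Finset.card_le_card hcover).trans Finset.card_biUnion_le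
    have h2 : 2 * Q.card * Bad.card ≤ Q.card * Fintype.card ι := by
      calc 2 * Q.card * Bad.card ≤ 2 * Q.card * ∑ q ∈ Q, (cls q).card :=
            Nat.mul_le_mul_left _ h1
        _ = ∑ q ∈ Q, 2 * Q.card * (cls q).card := by rw [Finset.mul_sum]
        _ ≤ ∑ _q ∈ Q, Fintype.card ι := Finset.sum_le_sum hcls
        _ = Q.card * Fintype.card ι := by simp
    have h3 : Q.card * (2 * Bad.card) ≤ Q.card * Fintype.card ι := by nlinarith
    exact Nat.le_of_mul_le_mul_left h3 hQpos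
  omega

/-- The count behind the abstract single scale bound. -/
lemma abstract_count [Nonempty ι] {F : Set (ι → ℝ)} (hF : FamilyData F 2) (J : ℕ) {B : ℝ}
    (hB : 1 ≤ B) {Q : Finset (ι → ℝ)} (hQF : ∀ q ∈ Q, q ∈ F)
    (hQ : ∀ f ∈ F, ∃ q ∈ Q, ∀ i, |f i - q i| ≤ 1 / (8 * ((J : ℝ) + 1)) / (8 * B))
    (hQ1 : 1 ≤ Q.card)
    (hsep : ∀ i j : ι, i ≠ j → ∃ f ∈ F, 1 < f i - f j)
    (hdich : ∀ x : ι, (∃ μ, IsProb μ ∧ (∀ i, μ i ≤ (2 * Q.card : ℝ) / Fintype.card ι) ∧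
        ∀ f ∈ F, avg μ f - f x ≤ 1 / 8) ∨
      (∃ f ∈ F, ∀ μ, IsProb μ → (∀ i, μ i ≤ (2 * Q.card : ℝ) / Fintype.card ι) →
        avg μ f < f x - 1 / 8)) :
    ∃ N : ℕ, Fintype.card ι ≤ 2 * (Q.card ^ J * (Q.card + 1) ^ N) ∧
      (N : ℝ) ≤ 5 + ((2 * B)⁻¹) ^ J * Real.log (2 * Q.card) * (4096 * ((J : ℝ) + 1) ^ 2) := by
  have hBpos : 0 < B := by linarith
  have hQR : (1 : ℝ) ≤ Q.card := by exact_mod_cast hQ1
  obtain ⟨g, hg⟩ : ∃ g : ℝ, g = 1 / (8 * ((J : ℝ) + 1)) := ⟨_, rfl⟩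
  rw [← hg] at hQ
  have hgpos : 0 < g := by rw [hg]; positivity
  have hJg : ((J : ℝ) + 1) * g = 1 / 8 := by rw [hg]; field_simp
  have hJnn : (0 : ℝ) ≤ J := by positivity
  have hg1 : g ≤ 1 / 8 := by nlinarith
  have hgB : g / (8 * B) ≤ g / 8 := by
    apply div_le_div_of_nonneg_left hgpos.le (by norm_num)
    linarith
  have hg8 : g / 8 = g * (1 / 8) := by ring
  have hR2 : (0 : ℝ) < 2 := by norm_num
  -- the start
  obtain ⟨A₀, hA₀card, hA₀⟩ := good_large hF (δ := 1 / 8) (ε := g / (8 * B))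
    (by norm_num) (by nlinarith) hQ hdich
  have hS₀ : State F A₀ (fun _ : ι => ((Fintype.card ι : ℝ))⁻¹) (Real.log (2 * Q.card)) (1 / 8) := by
    refine ⟨isPosProb_unif, ?_⟩
    have hch : ∀ x ∈ A₀, ∃ μ, IsProb μ ∧
        kl μ (fun _ : ι => ((Fintype.card ι : ℝ))⁻¹) ≤ Real.log (2 * Q.card) ∧
        ∀ f ∈ F, avg μ f - f x ≤ 1 / 8 := by
      intro x hx
      obtain ⟨μ, h1, h2, h3⟩ := hA₀ x hx
      exact ⟨μ, h1, kl_unif_le h1 h2, h3⟩
    choose! m hm using hch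
    exact ⟨m, hm⟩
  have hlog2q : 0 ≤ Real.log (2 * (Q.card : ℝ)) := Real.log_nonneg (by linarith)
  have hg2R : g ≤ 2 * 2 := by linarith
  obtain ⟨A, π, hAcard, hπ, m, hm⟩ := iterate_stage hF hR2 hgpos hg2R hB hQ hlog2q hS₀ J
  -- the compression
  obtain ⟨τ, hτ⟩ : ∃ τ : ℝ, τ = ((2 * B)⁻¹) ^ J * Real.log (2 * Q.card) + g ^ 2 / (4 * 2 ^ 2) :=
    ⟨_, rfl⟩
  rw [← hτ] at hm
  have hτnn : 0 ≤ τ := by rw [hτ]; positivity
  obtain ⟨gain, hgain⟩ : ∃ gain : ℝ, gain = g ^ 2 / (16 * (2 : ℝ) ^ 2) := ⟨_, rfl⟩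
  have hgainpos : 0 < gain := by rw [hgain]; positivity
  refine ⟨⌈τ / gain⌉₊, ?_, ?_⟩
  · have hN1 : τ ≤ (⌈τ / gain⌉₊ : ℝ) * gain := by
      have := Nat.le_ceil (τ / gain)
      rwa [div_le_iff₀ hgainpos] at this
    have hΔ : 2 * (1 / 8 + (J : ℝ) * g) + 2 * g ≤ 1 := by nlinarith
    have hε' : g / (8 * B) ≤ g / 4 := by
      refine hgB.trans ?_
      nlinarith
    have hcomp : A.card ≤ (Q.card + 1) ^ ⌈τ / gain⌉₊ := by
      refine compress hF hR2 hgpos (by linarith) hε' hQF hQ hsep hΔ _ π A m hπ ?_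
      intro x hx
      obtain ⟨h1, h2, h3⟩ := hm x hx
      rw [← hgain]
      exact ⟨h1, h2.trans hN1, h3⟩
    calc Fintype.card ι ≤ 2 * A₀.card := hA₀card
      _ ≤ 2 * (Q.card ^ J * A.card) := Nat.mul_le_mul_left _ hAcard
      _ ≤ 2 * (Q.card ^ J * (Q.card + 1) ^ _) :=
          Nat.mul_le_mul_left _ (Nat.mul_le_mul_left _ hcomp)
  · have hN2 : ((⌈τ / gain⌉₊ : ℕ) : ℝ) < τ / gain + 1 := Nat.ceil_lt_add_one (by positivity)
    have e1 : τ / gain = ((2 * B)⁻¹) ^ J * Real.log (2 * Q.card) * (4096 * ((J : ℝ) + 1) ^ 2) + 4 := by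
      have hgsq : g ^ 2 * ((J : ℝ) + 1) ^ 2 = 1 / 64 := by
        have : (((J : ℝ) + 1) * g) ^ 2 = (1 / 8) ^ 2 := by rw [hJg]
        nlinarith
      have hg2pos : 0 < g ^ 2 := by positivity
      rw [hτ, hgain]
      rw [div_eq_iff (by positivity)]
      have h64 : (4096 * ((J : ℝ) + 1) ^ 2) * (g ^ 2 / (16 * 2 ^ 2)) = 1 := by
        have : (4096 * ((J : ℝ) + 1) ^ 2) * (g ^ 2 / (16 * 2 ^ 2)) = 64 * (g ^ 2 * ((J : ℝ) + 1) ^ 2) := by
          ring
        rw [this, hgsq]; norm_num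
      have h65 : ((2 * B)⁻¹) ^ J * Real.log (2 * Q.card) * (4096 * ((J : ℝ) + 1) ^ 2) *
          (g ^ 2 / (16 * 2 ^ 2)) = ((2 * B)⁻¹) ^ J * Real.log (2 * Q.card) := by
        calc _ = ((2 * B)⁻¹) ^ J * Real.log (2 * Q.card) *
              ((4096 * ((J : ℝ) + 1) ^ 2) * (g ^ 2 / (16 * 2 ^ 2))) := by ring
          _ = _ := by rw [h64, mul_one]
      rw [add_mul, h65]
      ring
    linarith

/-- The numerical end of the abstract single scale bound. -/
lemma abstract_numeric {c q : ℝ} (J N : ℕ) {D : ℝ} (hD : 0 ≤ D) (hq : 2 ≤ q) (hc : 0 < c)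
    (h1 : c ≤ 2 * (q ^ J * (q + 1) ^ N))
    (h2 : (N : ℝ) ≤ 5 + D * Real.log (2 * q) * (4096 * ((J : ℝ) + 1) ^ 2)) :
    Real.log c ≤ (J + 11) * Real.log q + 16384 * ((J : ℝ) + 1) ^ 2 * D * (Real.log q) ^ 2 := by
  have hqpos : 0 < q := by linarith
  have hapos : 0 < Real.log q := Real.log_pos (by linarith)
  obtain ⟨a, ha⟩ : ∃ a : ℝ, a = Real.log q := ⟨_, rfl⟩
  rw [← ha] at hapos ⊢
  have hlog2 : Real.log 2 ≤ a := by rw [ha]; exact Real.log_le_log (by norm_num) hq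
  have hlog2q : Real.log (2 * q) ≤ 2 * a := by
    rw [Real.log_mul (by norm_num) hqpos.ne', ← ha]
    linarith
  have hlogq1 : Real.log (q + 1) ≤ 2 * a := by
    have h3 : q + 1 ≤ q ^ 2 := by nlinarith
    have h4 := Real.log_le_log (by positivity) h3
    rw [Real.log_pow, ← ha] at h4
    simpa using h4
  have hlogc : Real.log c ≤ Real.log 2 + (J * a + N * Real.log (q + 1)) := by
    have h5 := Real.log_le_log hc h1
    rw [Real.log_mul (by norm_num) (by positivity), Real.log_mul (by positivity) (by positivity),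
      Real.log_pow, Real.log_pow, ← ha] at h5
    exact h5
  have hNb : (N : ℝ) ≤ 5 + D * (2 * a) * (4096 * ((J : ℝ) + 1) ^ 2) := by
    refine h2.trans ?_
    gcongr
  have hlogq1nn : 0 ≤ Real.log (q + 1) := Real.log_nonneg (by linarith)
  have h6 : (N : ℝ) * Real.log (q + 1) ≤
      (5 + D * (2 * a) * (4096 * ((J : ℝ) + 1) ^ 2)) * (2 * a) :=
    mul_le_mul hNb hlogq1 hlogq1nn (by positivity)
  have h7 : (5 + D * (2 * a) * (4096 * ((J : ℝ) + 1) ^ 2)) * (2 * a) =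
      10 * a + 16384 * ((J : ℝ) + 1) ^ 2 * D * a ^ 2 := by ring
  have h8 : ((J : ℝ) + 11) * a = J * a + a + 10 * a := by ring
  linarith

/-- The abstract single scale bound. -/
theorem abstract_single_scale {F : Set (ι → ℝ)} (hF : FamilyData F 2) (J : ℕ) {B : ℝ} (hB : 1 ≤ B)
    {Q : Finset (ι → ℝ)} (hQF : ∀ q ∈ Q, q ∈ F)
    (hQ : ∀ f ∈ F, ∃ q ∈ Q, ∀ i, |f i - q i| ≤ 1 / (64 * B * (J + 1)))
    (hsep : ∀ i j : ι, i ≠ j → ∃ f ∈ F, 1 < f i - f j)
    (hdich : ∀ x : ι, (∃ μ, IsProb μ ∧ (∀ i, μ i ≤ (2 * Q.card : ℝ) / Fintype.card ι) ∧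
        ∀ f ∈ F, avg μ f - f x ≤ 1 / 8) ∨
      (∃ f ∈ F, ∀ μ, IsProb μ → (∀ i, μ i ≤ (2 * Q.card : ℝ) / Fintype.card ι) →
        avg μ f < f x - 1 / 8)) :
    Real.log (Fintype.card ι) ≤ (J + 11) * Real.log Q.card +
      16384 * ((J : ℝ) + 1) ^ 2 * ((2 * B)⁻¹) ^ J * (Real.log Q.card) ^ 2 := by
  have hBpos : 0 < B := by linarith
  have hJ1 : (0 : ℝ) < (J : ℝ) + 1 := by positivity
  have hlogQ : 0 ≤ Real.log Q.card := Real.log_natCast_nonneg _
  have hRHS : 0 ≤ ((J : ℝ) + 11) * Real.log Q.card +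
      16384 * ((J : ℝ) + 1) ^ 2 * ((2 * B)⁻¹) ^ J * (Real.log Q.card) ^ 2 := by positivity
  have hε8 : 1 / (64 * B * ((J : ℝ) + 1)) ≤ 1 / 64 := by
    rw [div_le_div_iff₀ (by positivity) (by norm_num)]
    have : (1 : ℝ) ≤ B * ((J : ℝ) + 1) := by nlinarith
    nlinarith
  have hQne : Q.Nonempty := by
    obtain ⟨q, hq, _⟩ := hQ 0 hF.zero_mem
    exact ⟨q, hq⟩
  by_cases hne : Nonempty ι
  swap
  · rw [not_nonempty_iff] at hne
    simpa using hRHS
  by_cases hQ1 : Q.card = 1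
  · have hsub : Fintype.card ι ≤ 1 := by
      refine Fintype.card_le_one_iff.mpr (fun a b => ?_)
      by_contra hab
      obtain ⟨f, hf, hgap⟩ := hsep a b hab
      obtain ⟨q, hq, hn1⟩ := hQ f hf
      obtain ⟨q', hq', hn2⟩ := hQ 0 hF.zero_mem
      have hqq : q = q' := by
        obtain ⟨q₀, h₀⟩ := Finset.card_eq_one.mp hQ1
        rw [h₀] at hq hq'
        rw [Finset.mem_singleton.mp hq, Finset.mem_singleton.mp hq']
      rw [← hqq] at hn2
      have e1 := abs_le.mp (hn1 a)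
      have e2 := abs_le.mp (hn1 b)
      have e3 := abs_le.mp (hn2 a)
      have e4 := abs_le.mp (hn2 b)
      simp only [Pi.zero_apply, zero_sub, neg_le_neg_iff] at e3 e4
      linarith [e1.1, e1.2, e2.1, e2.2, e3.1, e3.2, e4.1, e4.2]
    have hc : (Fintype.card ι : ℝ) ≤ 1 := by exact_mod_cast hsub
    have hc0 : (0 : ℝ) < Fintype.card ι := by exact_mod_cast Fintype.card_pos
    have : Real.log (Fintype.card ι) ≤ 0 := Real.log_nonpos hc0.le hc
    linarith
  have hQ2 : 2 ≤ Q.card := by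
    have := Finset.card_pos.mpr hQne
    omega
  have hQ2R : (2 : ℝ) ≤ Q.card := by exact_mod_cast hQ2
  have hQ' : ∀ f ∈ F, ∃ q ∈ Q, ∀ i, |f i - q i| ≤ 1 / (8 * ((J : ℝ) + 1)) / (8 * B) := by
    have : 1 / (8 * ((J : ℝ) + 1)) / (8 * B) = 1 / (64 * B * ((J : ℝ) + 1)) := by
      field_simp; ring
    rw [this]; exact hQ
  obtain ⟨N, h1, h2⟩ := abstract_count hF J hB hQF hQ' (by omega) hsep hdich
  have hc0 : (0 : ℝ) < Fintype.card ι := by exact_mod_cast Fintype.card_pos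
  have hcountR : (Fintype.card ι : ℝ) ≤ 2 * ((Q.card : ℝ) ^ J * ((Q.card : ℝ) + 1) ^ N) := by
    exact_mod_cast h1
  exact abstract_numeric J N (by positivity) hQ2R hc0 hcountR h2

end Vale.Agent.Lib.P126
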