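import Mathlib

/-!
Definitions for the statement: origin-symmetric convex bodies, covering numbers, polars.
-/

namespace Vale.Agent.Lib.P126

open scoped Pointwise

variable {E : Type*} [NormedAddCommGroup E] [InnerProductSpace ℝ E]

/-- An origin-symmetric convex body: compact, convex, nonempty interior, `K = -K`. -/
structure IsSymBody (K : Set E) : Prop where
  isCompact : IsCompact K
  convex : Convex ℝ K
  interior_nonempty : (interior K).Nonempty
  symm : ∀ x ∈ K, -x ∈ K

/-- The covering number `N(A, B)`: the least number of translates `x + B` whose union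
contains `A`. -/
noncomputable def covNum (A B : Set E) : ℕ :=
  sInf {m | ∃ t : Finset E, t.card = m ∧ A ⊆ ⋃ x ∈ t, x +ᵥ B}

/-- The polar `K° = {y | ⟪x, y⟫ ≤ 1 for all x in K}`. -/
def polarSet (K : Set E) : Set E := {y | ∀ x ∈ K, inner ℝ x y ≤ 1}

end Vale.Agent.Lib.P126
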