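import Vale.Agent.Lib.P126.Defs
import Vale.Agent.Lib.P126.Core

/-!
Convex geometry input: separation, the dichotomy, the single scale bound in inner product spaces.
-/

namespace Vale.Agent.Lib.P126

open Finset
open scoped Pointwise InnerProductSpace

variable {E : Type*} [NormedAddCommGroup E] [InnerProductSpace ℝ E]

lemma polarSet_convex (L : Set E) : Convex ℝ (polarSet L) := by
  intro y hy y' hy' a b ha hb hab x hx
  rw [inner_add_right, inner_smul_right, inner_smul_right]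
  have h1 := hy x hx
  have h2 := hy' x hx
  nlinarith

lemma polarSet_neg {L : Set E} (hL : ∀ x ∈ L, -x ∈ L) {y : E} (hy : y ∈ polarSet L) :
    -y ∈ polarSet L := by
  intro x hx
  have := hy (-x) (hL x hx)
  rw [inner_neg_left] at this
  rw [inner_neg_right]
  exact this

lemma polarSet_zero (L : Set E) : (0 : E) ∈ polarSet L := by
  intro x _
  simp

lemma abs_inner_le_of_polar {L : Set E} (hL : ∀ x ∈ L, -x ∈ L) {y l : E} (hy : y ∈ polarSet L)
    (hl : l ∈ L) : |⟪y, l⟫_ℝ| ≤ 1 := by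
  have h1 := hy l hl
  have h2 := hy (-l) (hL l hl)
  rw [inner_neg_left] at h2
  rw [real_inner_comm] at h1 h2
  exact abs_le.mpr ⟨by linarith, h1⟩

/-- The separation step: a compact convex set disjoint from a translate of `δ L` is strictly
separated, and the separating functional can be normalized to lie in the polar of `L`. -/
lemma exists_polar_sep [FiniteDimensional ℝ E] {L D : Set E} (hLc : IsCompact L) (hLconv : Convex ℝ L)
    (hLs : ∀ x ∈ L, -x ∈ L) (hLne : L.Nonempty) (hDc : IsCompact D) (hDconv : Convex ℝ D) (p : E)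
    {δ : ℝ} (hδ : 0 < δ) (hdisj : ∀ d ∈ D, ∀ l ∈ L, d ≠ p + δ • l) :
    ∃ y ∈ polarSet L, ∀ d ∈ D, δ < ⟪y, p - d⟫_ℝ := by
  have : CompleteSpace E := FiniteDimensional.complete ℝ E
  let t : Set E := (fun l => p + δ • l) '' L
  have htc : IsCompact t := hLc.image (by fun_prop)
  have htconv : Convex ℝ t := by
    rintro _ ⟨l, hl, rfl⟩ _ ⟨l', hl', rfl⟩ a b ha hb hab
    refine ⟨a • l + b • l', hLconv hl hl' ha hb hab, ?_⟩
    have hb' : b = 1 - a := by linarith
    subst hb'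
    module
  have hd : Disjoint D t := by
    rw [Set.disjoint_left]
    rintro d hd ⟨l, hl, rfl⟩
    exact hdisj _ hd l hl rfl
  obtain ⟨f, u, v, h1, huv, h3⟩ := geometric_hahn_banach_compact_closed hDconv hDc htconv
    htc.isClosed hd
  let y₀ : E := (InnerProductSpace.toDual ℝ E).symm f
  have hy₀ : ∀ w, ⟪y₀, w⟫_ℝ = f w := fun w => InnerProductSpace.toDual_symm_apply
  obtain ⟨l₀, hl₀, hmax⟩ := hLc.exists_isMaxOn hLne
    (f := fun l => ⟪y₀, l⟫_ℝ) (by fun_prop)
  have hmax' : ∀ l ∈ L, ⟪y₀, l⟫_ℝ ≤ ⟪y₀, l₀⟫_ℝ := fun l hl => hmax hl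
  set σ := ⟪y₀, l₀⟫_ℝ with hσ
  have hσnn : 0 ≤ σ := by
    have := hmax' (-l₀) (hLs _ hl₀)
    rw [inner_neg_right] at this
    linarith
  set κ := (v - u) / δ with hκ
  have hκpos : 0 < κ := div_pos (by linarith) hδ
  have hpos : 0 < σ + κ := by linarith
  refine ⟨(σ + κ)⁻¹ • y₀, ?_, ?_⟩
  · intro x hx
    rw [inner_smul_right, real_inner_comm, inv_mul_eq_div, div_le_one hpos]
    have := hmax' x hx
    linarith
  · intro d hd
    have e1 := h1 d hd
    have e2 := h3 (p + δ • (-l₀)) ⟨-l₀, hLs _ hl₀, rfl⟩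
    rw [← hy₀, inner_add_right, inner_smul_right, inner_neg_right] at e2
    rw [← hy₀] at e1
    rw [real_inner_smul_left, inner_sub_right, inv_mul_eq_div, lt_div_iff₀ hpos]
    have : δ * (σ + κ) = δ * σ + (v - u) := by
      rw [hκ]; field_simp
    rw [this]
    linarith

/-- Bipolar: points outside `L` are separated by the polar. -/
lemma exists_polar_of_notMem [FiniteDimensional ℝ E] {L : Set E} (hLc : IsCompact L)
    (hLconv : Convex ℝ L) (hLs : ∀ x ∈ L, -x ∈ L) (hLne : L.Nonempty) {w : E} (hw : w ∉ L) :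
    ∃ y ∈ polarSet L, 1 < ⟪y, w⟫_ℝ := by
  obtain ⟨y, hy, h⟩ := exists_polar_sep hLc hLconv hLs hLne (D := {w}) isCompact_singleton
    (convex_singleton w) 0 one_pos (by
      intro d hd l hl hcon
      rw [Set.mem_singleton_iff] at hd
      subst hd
      simp only [zero_add, one_smul] at hcon
      exact hw (hcon ▸ hl))
  refine ⟨-y, polarSet_neg hLs hy, ?_⟩
  have := h w rfl
  rw [inner_neg_left]
  rw [inner_sub_right, inner_zero_right] at this
  linarith

variable {ι : Type*} [Fintype ι]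

/-- The test function of `y` along the points `z`. -/
def fam (z : ι → E) (y : E) : ι → ℝ := fun i => ⟪y, z i⟫_ℝ

/-- The mean of `z` under `μ`. -/
noncomputable def meanPt (z : ι → E) (μ : ι → ℝ) : E := ∑ i, μ i • z i

lemma avg_fam (z : ι → E) (y : E) (μ : ι → ℝ) : avg μ (fam z y) = ⟪y, meanPt z μ⟫_ℝ := by
  unfold avg fam meanPt
  rw [inner_sum]
  exact Finset.sum_congr rfl (fun i _ => by rw [inner_smul_right])

/-- The bounded density simplex. -/
def densSet (ι : Type*) [Fintype ι] (c : ℝ) : Set (ι → ℝ) := {μ | IsProb μ ∧ ∀ i, μ i ≤ c}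

lemma densSet_compact (c : ℝ) : IsCompact (densSet ι c) := by
  have hsub : densSet ι c ⊆ Set.pi Set.univ (fun _ => Set.Icc (0 : ℝ) c) := by
    intro μ hμ i _
    exact ⟨hμ.1.1 i, hμ.2 i⟩
  refine IsCompact.of_isClosed_subset (isCompact_univ_pi (fun _ => isCompact_Icc)) ?_ hsub
  have h1 : IsClosed {μ : ι → ℝ | ∀ i, 0 ≤ μ i} := by
    simp only [Set.ofPred_forall]
    exact isClosed_iInter (fun i => isClosed_le continuous_const (continuous_apply i))
  have h2 : IsClosed {μ : ι → ℝ | ∑ i, μ i = 1} :=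
    isClosed_eq (continuous_finsetSum _ (fun i _ => continuous_apply i)) continuous_const
  have h3 : IsClosed {μ : ι → ℝ | ∀ i, μ i ≤ c} := by
    simp only [Set.ofPred_forall]
    exact isClosed_iInter (fun i => isClosed_le (continuous_apply i) continuous_const)
  have : densSet ι c = ({μ : ι → ℝ | ∀ i, 0 ≤ μ i} ∩ {μ : ι → ℝ | ∑ i, μ i = 1}) ∩
      {μ : ι → ℝ | ∀ i, μ i ≤ c} := by
    ext μ
    simp only [densSet, IsProb, Set.mem_ofPred_eq, Set.mem_inter_iff]
  rw [this]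
  exact (h1.inter h2).inter h3

lemma densSet_convex (c : ℝ) : Convex ℝ (densSet ι c) := by
  intro μ hμ ν hν a b ha hb hab
  refine ⟨⟨fun i => ?_, ?_⟩, fun i => ?_⟩
  · have := hμ.1.1 i
    have := hν.1.1 i
    simp only [Pi.add_apply, Pi.smul_apply, smul_eq_mul]
    positivity
  · simp only [Pi.add_apply, Pi.smul_apply, smul_eq_mul]
    rw [Finset.sum_add_distrib, ← Finset.mul_sum, ← Finset.mul_sum, hμ.1.2, hν.1.2]
    linarith
  · have h1 := hμ.2 i
    have h2 := hν.2 i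
    simp only [Pi.add_apply, Pi.smul_apply, smul_eq_mul]
    calc a * μ i + b * ν i ≤ a * c + b * c := by gcongr
      _ = c := by rw [← add_mul, hab, one_mul]

/-- The dichotomy: minimax for bounded density averages against the polar of `L`. -/
lemma dichotomy [FiniteDimensional ℝ E] {L : Set E} (hLc : IsCompact L) (hLconv : Convex ℝ L)
    (hLs : ∀ x ∈ L, -x ∈ L) (hLne : L.Nonempty) (z : ι → E) (x : ι) (c : ℝ) {δ : ℝ} (hδ : 0 < δ) :
    (∃ μ, IsProb μ ∧ (∀ i, μ i ≤ c) ∧ ∀ y ∈ polarSet L, avg μ (fam z y) - fam z y x ≤ δ) ∨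
    (∃ y ∈ polarSet L, ∀ μ, IsProb μ → (∀ i, μ i ≤ c) → avg μ (fam z y) < fam z y x - δ) := by
  let D : Set E := meanPt z '' densSet ι c
  have hcont : Continuous (meanPt z) := by
    unfold meanPt
    exact continuous_finsetSum _ (fun i _ => (continuous_apply i).smul continuous_const)
  have hDc : IsCompact D := (densSet_compact c).image hcont
  have hDconv : Convex ℝ D := by
    intro d hd d' hd' a b ha hb hab
    obtain ⟨μ, hμ, rfl⟩ := hd
    obtain ⟨ν, hν, rfl⟩ := hd'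
    refine ⟨a • μ + b • ν, densSet_convex c hμ hν ha hb hab, ?_⟩
    unfold meanPt
    rw [Finset.smul_sum, Finset.smul_sum, ← Finset.sum_add_distrib]
    refine Finset.sum_congr rfl (fun i _ => ?_)
    simp only [Pi.add_apply, Pi.smul_apply, smul_eq_mul, add_smul, mul_smul]
  by_cases hex : ∃ d ∈ D, ∃ l ∈ L, d = z x + δ • l
  · left
    obtain ⟨d, ⟨μ, hμ, rfl⟩, l, hl, hd⟩ := hex
    refine ⟨μ, hμ.1, hμ.2, fun y hy => ?_⟩
    rw [avg_fam, hd, inner_add_right, inner_smul_right]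
    have h1 := abs_inner_le_of_polar hLs hy hl
    have h2 := (abs_le.mp h1).2
    simp only [fam]
    nlinarith
  · right
    push Not at hex
    obtain ⟨y, hy, h⟩ := exists_polar_sep hLc hLconv hLs hLne hDc hDconv (z x) hδ hex
    refine ⟨y, hy, fun μ hμ hμc => ?_⟩
    have := h (meanPt z μ) ⟨μ, ⟨hμ, hμc⟩, rfl⟩
    rw [inner_sub_right] at this
    rw [avg_fam]
    simp only [fam]
    linarith

/-- The family of test functions along the points `z`. -/
lemma familyData_fam {L : Set E} (hLs : ∀ x ∈ L, -x ∈ L) (z : ι → E)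
    (hz : ∀ y ∈ polarSet L, ∀ i, |⟪y, z i⟫_ℝ| ≤ 2) : FamilyData (fam z '' polarSet L) 2 := by
  refine ⟨?_, ?_, ⟨0, polarSet_zero L, ?_⟩, ?_⟩
  · rintro _ ⟨y, hy, rfl⟩ _ ⟨y', hy', rfl⟩ a b ha hb hab
    refine ⟨a • y + b • y', polarSet_convex L hy hy' ha hb hab, ?_⟩
    funext i
    simp only [fam, Pi.add_apply, Pi.smul_apply, smul_eq_mul, inner_add_left, real_inner_smul_left]
  · rintro _ ⟨y, hy, rfl⟩
    refine ⟨-y, polarSet_neg hLs hy, ?_⟩
    funext i
    simp only [fam, Pi.neg_apply, inner_neg_left]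
  · funext i
    simp only [fam, Pi.zero_apply, inner_zero_left]
  · rintro _ ⟨y, hy, rfl⟩ i
    exact hz y hy i

/-- The single scale bound in an inner product space. -/
theorem single_scale [FiniteDimensional ℝ E] {L : Set E} (hLc : IsCompact L) (hLconv : Convex ℝ L)
    (hLs : ∀ x ∈ L, -x ∈ L) (hLne : L.Nonempty) (z : ι → E)
    (hz : ∀ y ∈ polarSet L, ∀ i, |⟪y, z i⟫_ℝ| ≤ 2)
    (hsep : ∀ i j : ι, i ≠ j → z i - z j ∉ L) (J : ℕ) {B : ℝ} (hB : 1 ≤ B)
    {P : Finset E} (hP : ∀ p ∈ P, p ∈ polarSet L)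
    (hnet : ∀ y ∈ polarSet L, ∃ p ∈ P, ∀ i, |⟪y, z i⟫_ℝ - ⟪p, z i⟫_ℝ| ≤ 1 / (64 * B * (J + 1))) :
    Real.log (Fintype.card ι) ≤ (J + 11) * Real.log P.card +
      16384 * ((J : ℝ) + 1) ^ 2 * ((2 * B)⁻¹) ^ J * (Real.log P.card) ^ 2 := by
  classical
  let F : Set (ι → ℝ) := fam z '' polarSet L
  have hF : FamilyData F 2 := familyData_fam hLs z hz
  let Q : Finset (ι → ℝ) := P.image (fam z)
  have hQF : ∀ q ∈ Q, q ∈ F := by
    intro q hq
    obtain ⟨p, hp, rfl⟩ := Finset.mem_image.mp hq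
    exact ⟨p, hP p hp, rfl⟩
  have hQ : ∀ f ∈ F, ∃ q ∈ Q, ∀ i, |f i - q i| ≤ 1 / (64 * B * (J + 1)) := by
    rintro _ ⟨y, hy, rfl⟩
    obtain ⟨p, hp, h⟩ := hnet y hy
    exact ⟨fam z p, Finset.mem_image_of_mem _ hp, h⟩
  have hsep' : ∀ i j : ι, i ≠ j → ∃ f ∈ F, 1 < f i - f j := by
    intro i j hij
    obtain ⟨y, hy, h⟩ := exists_polar_of_notMem hLc hLconv hLs hLne (hsep i j hij)
    refine ⟨fam z y, ⟨y, hy, rfl⟩, ?_⟩
    rw [inner_sub_right] at h
    exact h
  have hdich : ∀ x : ι, (∃ μ, IsProb μ ∧ (∀ i, μ i ≤ (2 * Q.card : ℝ) / Fintype.card ι) ∧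
        ∀ f ∈ F, avg μ f - f x ≤ 1 / 8) ∨
      (∃ f ∈ F, ∀ μ, IsProb μ → (∀ i, μ i ≤ (2 * Q.card : ℝ) / Fintype.card ι) →
        avg μ f < f x - 1 / 8) := by
    intro x
    rcases dichotomy hLc hLconv hLs hLne z x ((2 * Q.card : ℝ) / Fintype.card ι)
      (δ := 1 / 8) (by norm_num) with ⟨μ, h1, h2, h3⟩ | ⟨y, hy, h⟩
    · left
      refine ⟨μ, h1, h2, ?_⟩
      rintro _ ⟨y, hy, rfl⟩
      exact h3 y hy
    · right
      exact ⟨fam z y, ⟨y, hy, rfl⟩, h⟩
  have hmain := abstract_single_scale hF J hB hQF hQ hsep' hdich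
  have hQne : 1 ≤ Q.card := by
    obtain ⟨q, hq, _⟩ := hQ 0 hF.zero_mem
    exact Finset.card_pos.mpr ⟨q, hq⟩
  have hle : (Q.card : ℝ) ≤ P.card := by exact_mod_cast Finset.card_image_le
  have hQR : (1 : ℝ) ≤ Q.card := by exact_mod_cast hQne
  have hlogle : Real.log Q.card ≤ Real.log P.card := Real.log_le_log (by linarith) hle
  have hlognn : 0 ≤ Real.log Q.card := Real.log_nonneg hQR
  have hBpos : 0 < B := by linarith
  refine hmain.trans ?_
  gcongr

end Vale.Agent.Lib.P126
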