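import Mathlib

/-!
Finite Gibbs calculus: averages, relative entropy, exponential tilts.
-/

namespace Vale.Agent.Lib.P126

open Finset

variable {ι : Type*} [Fintype ι]

/-- The average of `f` under the weight vector `μ`. -/
noncomputable def avg (μ f : ι → ℝ) : ℝ := ∑ i, μ i * f i

/-- Relative entropy of the weight vector `μ` with respect to `π`. -/
noncomputable def kl (μ π : ι → ℝ) : ℝ := ∑ i, μ i * Real.log (μ i / π i)

/-- The exponential sum of `f` under `π`. -/
noncomputable def mgf (π f : ι → ℝ) : ℝ := ∑ i, π i * Real.exp (f i)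

/-- The exponential tilt of `π` by `f`. -/
noncomputable def tilt (π f : ι → ℝ) : ι → ℝ := fun i => π i * Real.exp (f i) / mgf π f

/-- Probability vectors. -/
def IsProb (μ : ι → ℝ) : Prop := (∀ i, 0 ≤ μ i) ∧ ∑ i, μ i = 1

/-- Strictly positive probability vectors. -/
def IsPosProb (π : ι → ℝ) : Prop := (∀ i, 0 < π i) ∧ ∑ i, π i = 1

lemma IsPosProb.isProb {π : ι → ℝ} (h : IsPosProb π) : IsProb π :=
  ⟨fun i => (h.1 i).le, h.2⟩

lemma IsPosProb.nonempty {π : ι → ℝ} (h : IsPosProb π) : Nonempty ι := by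
  by_contra hne
  rw [not_nonempty_iff] at hne
  have := h.2
  simp at this

lemma mgf_pos {π : ι → ℝ} (h : IsPosProb π) (f : ι → ℝ) : 0 < mgf π f := by
  have := h.nonempty
  unfold mgf
  exact Finset.sum_pos (fun i _ => mul_pos (h.1 i) (Real.exp_pos _)) Finset.univ_nonempty

lemma isPosProb_tilt {π : ι → ℝ} (h : IsPosProb π) (f : ι → ℝ) : IsPosProb (tilt π f) := by
  have hm := mgf_pos h f
  refine ⟨fun i => div_pos (mul_pos (h.1 i) (Real.exp_pos _)) hm, ?_⟩
  unfold tilt
  rw [← Finset.sum_div]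
  exact div_self hm.ne'

lemma avg_add_right (μ f g : ι → ℝ) : avg μ (f + g) = avg μ f + avg μ g := by
  unfold avg
  rw [← Finset.sum_add_distrib]
  exact Finset.sum_congr rfl (fun i _ => by simp [mul_add])

lemma avg_neg_right (μ f : ι → ℝ) : avg μ (-f) = - avg μ f := by
  unfold avg
  rw [← Finset.sum_neg_distrib]
  exact Finset.sum_congr rfl (fun i _ => by simp)

lemma avg_sub_right (μ f g : ι → ℝ) : avg μ (f - g) = avg μ f - avg μ g := by
  rw [sub_eq_add_neg, avg_add_right, avg_neg_right]; ring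

lemma avg_smul_right (μ f : ι → ℝ) (c : ℝ) : avg μ (c • f) = c * avg μ f := by
  unfold avg
  rw [Finset.mul_sum]
  exact Finset.sum_congr rfl (fun i _ => by simp; ring)

lemma avg_le_of_le {μ f : ι → ℝ} (hμ : IsProb μ) {c : ℝ} (h : ∀ i, f i ≤ c) : avg μ f ≤ c := by
  unfold avg
  calc ∑ i, μ i * f i ≤ ∑ i, μ i * c :=
        Finset.sum_le_sum (fun i _ => mul_le_mul_of_nonneg_left (h i) (hμ.1 i))
    _ = c := by rw [← Finset.sum_mul, hμ.2, one_mul]

lemma le_avg_of_le {μ f : ι → ℝ} (hμ : IsProb μ) {c : ℝ} (h : ∀ i, c ≤ f i) : c ≤ avg μ f := by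
  unfold avg
  calc c = ∑ i, μ i * c := by rw [← Finset.sum_mul, hμ.2, one_mul]
    _ ≤ ∑ i, μ i * f i :=
        Finset.sum_le_sum (fun i _ => mul_le_mul_of_nonneg_left (h i) (hμ.1 i))

lemma mgf_tilt (π f g : ι → ℝ) :
    mgf (tilt π f) g = mgf π (f + g) / mgf π f := by
  have : mgf (tilt π f) g = ∑ i, π i * Real.exp (f i) / mgf π f * Real.exp (g i) := rfl
  rw [this]
  have h2 : mgf π (f + g) = ∑ i, π i * Real.exp ((f + g) i) := rfl
  rw [h2, Finset.sum_div]
  refine Finset.sum_congr rfl (fun i _ => ?_)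
  simp only [Pi.add_apply, Real.exp_add]
  ring

lemma tilt_tilt {π : ι → ℝ} (h : IsPosProb π) (f g : ι → ℝ) :
    tilt (tilt π f) g = tilt π (f + g) := by
  funext i
  have hm := mgf_pos h f
  have hm2 := mgf_pos h (f + g)
  have : mgf (tilt π f) g = mgf π (f + g) / mgf π f := mgf_tilt π f g
  unfold tilt at *
  rw [this]
  simp only [Pi.add_apply, Real.exp_add]
  field_simp

lemma tilt_zero {π : ι → ℝ} (h : IsPosProb π) : tilt π 0 = π := by
  funext i
  have : mgf π 0 = 1 := by
    unfold mgf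
    simp [h.2]
  unfold tilt
  rw [this]
  simp

lemma kl_nonneg {μ π : ι → ℝ} (hμ : IsProb μ) (hπ : IsPosProb π) : 0 ≤ kl μ π := by
  have key : ∀ i, μ i - π i ≤ μ i * Real.log (μ i / π i) := by
    intro i
    rcases (hμ.1 i).eq_or_lt with h0 | hpos
    · rw [← h0]
      simp
      exact (hπ.1 i).le
    · have h1 : 0 < π i / μ i := div_pos (hπ.1 i) hpos
      have h2 := Real.log_le_sub_one_of_pos h1
      have h3 : Real.log (μ i / π i) = - Real.log (π i / μ i) := by
        rw [← Real.log_inv, inv_div]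
      rw [h3]
      have h4 : μ i * (π i / μ i - 1) = π i - μ i := by
        field_simp
      nlinarith [mul_le_mul_of_nonneg_left h2 hpos.le]
  have : ∑ i, (μ i - π i) ≤ kl μ π := Finset.sum_le_sum (fun i _ => key i)
  rw [Finset.sum_sub_distrib, hμ.2, hπ.2] at this
  simpa using this

lemma kl_tilt {μ π : ι → ℝ} (hμ : IsProb μ) (hπ : IsPosProb π) (f : ι → ℝ) :
    kl μ (tilt π f) = kl μ π - avg μ f + Real.log (mgf π f) := by
  have hm := mgf_pos hπ f
  unfold kl avg
  have key : ∀ i, μ i * Real.log (μ i / tilt π f i) =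
      μ i * Real.log (μ i / π i) - μ i * f i + μ i * Real.log (mgf π f) := by
    intro i
    rcases (hμ.1 i).eq_or_lt with h0 | hpos
    · rw [← h0]; simp
    · have hp := hπ.1 i
      have : μ i / tilt π f i = (μ i / π i) * (Real.exp (- f i) * mgf π f) := by
        unfold tilt
        rw [Real.exp_neg]
        have := Real.exp_pos (f i)
        field_simp
      rw [this, Real.log_mul (div_pos hpos hp).ne' (mul_pos (Real.exp_pos _) hm).ne',
        Real.log_mul (Real.exp_pos _).ne' hm.ne', Real.log_exp]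
      ring
  rw [Finset.sum_congr rfl (fun i _ => key i), Finset.sum_add_distrib, Finset.sum_sub_distrib,
    ← Finset.sum_mul, hμ.2, one_mul]

lemma mgf_le {π : ι → ℝ} (hπ : IsPosProb π) {f : ι → ℝ} {c : ℝ} (hc : c ≤ 1)
    (hf : ∀ i, |f i| ≤ c) : mgf π f ≤ 1 + avg π f + c ^ 2 := by
  have key : ∀ i, π i * Real.exp (f i) ≤ π i * (1 + f i + c ^ 2) := by
    intro i
    have h1 : |f i| ≤ 1 := (hf i).trans hc
    have h2 := Real.abs_exp_sub_one_sub_id_le h1
    have h3 : Real.exp (f i) - 1 - f i ≤ f i ^ 2 := (le_abs_self _).trans h2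
    have h4 : f i ^ 2 ≤ c ^ 2 := by
      have := sq_abs (f i)
      rw [← this]
      exact pow_le_pow_left₀ (abs_nonneg _) (hf i) 2
    exact mul_le_mul_of_nonneg_left (by linarith) (hπ.1 i).le
  calc mgf π f ≤ ∑ i, π i * (1 + f i + c ^ 2) := Finset.sum_le_sum (fun i _ => key i)
    _ = 1 + avg π f + c ^ 2 := by
        unfold avg
        have : ∀ i, π i * (1 + f i + c ^ 2) = π i + π i * f i + π i * c ^ 2 := fun i => by ring
        rw [Finset.sum_congr rfl (fun i _ => this i), Finset.sum_add_distrib,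
          Finset.sum_add_distrib, ← Finset.sum_mul, hπ.2]
        ring

/-- One tilting step decreases the relative entropy. -/
lemma kl_tilt_le {μ π : ι → ℝ} (hμ : IsProb μ) (hπ : IsPosProb π) {f : ι → ℝ} {c : ℝ}
    (hc : c ≤ 1) (hf : ∀ i, |f i| ≤ c) :
    kl μ (tilt π f) ≤ kl μ π - avg μ f + avg π f + c ^ 2 := by
  rw [kl_tilt hμ hπ f]
  have hm := mgf_pos hπ f
  have h1 := mgf_le hπ hc hf
  have h2 : Real.log (mgf π f) ≤ mgf π f - 1 := Real.log_le_sub_one_of_pos hm
  linarith

/-- A tilt by a small function stays close in relative entropy. -/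
lemma kl_tilt_self_le {π : ι → ℝ} (hπ : IsPosProb π) {f : ι → ℝ} {c : ℝ}
    (hf : ∀ i, |f i| ≤ c) : kl (tilt π f) π ≤ 2 * c := by
  have hm := mgf_pos hπ f
  have htp := isPosProb_tilt hπ f
  have hkey : ∀ i, tilt π f i * Real.log (tilt π f i / π i) =
      tilt π f i * (f i - Real.log (mgf π f)) := by
    intro i
    congr 1
    have hp := hπ.1 i
    have : tilt π f i / π i = Real.exp (f i) / mgf π f := by
      unfold tilt
      field_simp
    rw [this, Real.log_div (Real.exp_pos _).ne' hm.ne', Real.log_exp]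
  have hlow : Real.exp (-c) ≤ mgf π f := by
    unfold mgf
    calc Real.exp (-c) = ∑ i, π i * Real.exp (-c) := by
          rw [← Finset.sum_mul, hπ.2, one_mul]
      _ ≤ ∑ i, π i * Real.exp (f i) := by
          refine Finset.sum_le_sum (fun i _ => mul_le_mul_of_nonneg_left ?_ (hπ.1 i).le)
          exact Real.exp_le_exp.mpr (by have := (abs_le.mp (hf i)).1; linarith)
  have hlog : -c ≤ Real.log (mgf π f) := by
    rw [Real.le_log_iff_exp_le hm]
    exact hlow
  unfold kl
  rw [Finset.sum_congr rfl (fun i _ => hkey i)]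
  have : ∀ i, tilt π f i * (f i - Real.log (mgf π f)) ≤ tilt π f i * (2 * c) := by
    intro i
    refine mul_le_mul_of_nonneg_left ?_ (htp.1 i).le
    have := (abs_le.mp (hf i)).2
    linarith
  calc _ ≤ ∑ i, tilt π f i * (2 * c) := Finset.sum_le_sum (fun i _ => this i)
    _ = 2 * c := by rw [← Finset.sum_mul, htp.2, one_mul]

end Vale.Agent.Lib.P126
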