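import Vale.Agent.Lib.P126.Test

/-!
The level recursion: a test costs one net point and no tolerance; a step down a level costs
tolerance and no net point.
-/

namespace Vale.Agent.Lib.P126

open Finset

variable {ι : Type*} [Fintype ι]

/-- The dichotomy for relative entropy balls. -/
def KLDich (F : Set (ι → ℝ)) : Prop :=
  ∀ (π : ι → ℝ), IsPosProb π → ∀ (x : ι) (v β : ℝ), 0 < v → 0 < β →
    (∃ μ, IsProb μ ∧ kl μ π ≤ β ∧ ∀ f ∈ F, avg μ f - f x ≤ v) ∨
    (∃ f ∈ F, ∀ μ, IsProb μ → kl μ π ≤ β → avg μ f < f x - v)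

/-- A certified step: either a step down a level, or a tilt from the grid at a net point. -/
lemma step_or_tilt {F : Set (ι → ℝ)} (hF : FamilyData F 2) (hD : KLDich F) {Q : Finset (ι → ℝ)}
    {ε : ℝ} (hε : 0 < ε) (hQ : ∀ f ∈ F, ∃ q ∈ Q, ∀ i, |f i - q i| ≤ ε) {t₀ β B : ℝ}
    (ht₀ : 0 < t₀) (ht₀β : t₀ * 4 ≤ β) (hβ : 0 < β) {G : ℕ}
    (hG : B / (2 * ε) / t₀ < 2 ^ G) {π : ι → ℝ} (hπ : IsPosProb π) {x : ι} {μ : ι → ℝ}
    (hμ : IsProb μ) (hB : kl μ π ≤ B) {u : ℝ} (hu0 : 0 ≤ u) (hu : ∀ f ∈ F, avg μ f - f x ≤ u) :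
    (∃ μ', IsProb μ' ∧ kl μ' π ≤ β ∧ ∀ f ∈ F, avg μ' f - f x ≤ u + 2 * ε) ∨
    (∃ k ∈ Finset.range G, ∃ q ∈ Q,
      kl μ (tilt π ((t₀ * 2 ^ k) • q)) ≤ kl μ π - β / 2) := by
  have hv : 0 < u + 2 * ε := by linarith
  rcases hD π hπ x (u + 2 * ε) β hv hβ with h | ⟨f, hf, hall⟩
  · exact Or.inl h
  · right
    obtain ⟨t, ht, hcert⟩ := exists_certificate hπ hv hβ.le hall
    have hfx : f x - avg μ f ≤ u := by
      have := hu (-f) (hF.neg_mem f hf)
      rw [avg_neg_right] at this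
      simp only [Pi.neg_apply] at this
      linarith
    obtain ⟨h1, h2⟩ := cert_bounds (R := 2) hπ hμ ht hβ hε hu0 (hF.bound f hf) hfx hcert
    have ht1 : t₀ ≤ t := by nlinarith
    have hx1 : 1 ≤ t / t₀ := by rw [le_div_iff₀ ht₀]; linarith
    obtain ⟨k, hk1, hk2⟩ := exists_nat_pow_near hx1 (by norm_num : (1 : ℝ) < 2)
    have hkG : k < G := by
      have h3 : t / t₀ ≤ B / (2 * ε) / t₀ := by
        apply div_le_div_of_nonneg_right _ ht₀.le
        rw [le_div_iff₀ (by positivity)]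
        linarith
      have h4 : (2 : ℝ) ^ k < 2 ^ G := lt_of_le_of_lt (hk1.trans h3) hG
      exact (pow_lt_pow_iff_right₀ (by norm_num)).mp h4
    obtain ⟨q, hq, hnear⟩ := hQ f hf
    refine ⟨k, Finset.mem_range.mpr hkG, q, hq, ?_⟩
    have ht'1 : t₀ * 2 ^ k ≤ t := by
      rw [le_div_iff₀ ht₀] at hk1
      linarith
    have ht'2 : t ≤ 2 * (t₀ * 2 ^ k) := by
      rw [div_lt_iff₀ ht₀, pow_succ] at hk2
      linarith
    have hround := cert_round hπ hβ.le (by positivity) ht'1 ht'2 hcert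
    exact test_gain hπ hμ (by positivity) hfx hnear hround

/-- Level zero: points with a common centre are equal. -/
lemma level_zero {F : Set (ι → ℝ)} (hF : FamilyData F 2)
    (hsep : ∀ i j : ι, i ≠ j → ∃ f ∈ F, 1 < f i - f j) {π : ι → ℝ} (hπ : IsPosProb π)
    {A : Finset ι} {m : ι → ι → ℝ} {u : ℝ} (hu : u ≤ 1 / 4)
    (hm : ∀ x ∈ A, IsProb (m x) ∧ kl (m x) π ≤ 1 / 256 ∧ ∀ f ∈ F, avg (m x) f - f x ≤ u) :
    A.card ≤ 1 := by
  refine Finset.card_le_one.mpr (fun a ha b hb => ?_)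
  by_contra hne
  obtain ⟨f, hf, hgap⟩ := hsep a b hne
  obtain ⟨ha1, ha2, ha3⟩ := hm a ha
  obtain ⟨hb1, hb2, hb3⟩ := hm b hb
  have hη : (0 : ℝ) < 1 / 32 := by norm_num
  have hηR : (1 / 32 : ℝ) * 2 ≤ 1 := by norm_num
  have e1 := avg_sub_avg_le_of_kl ha1 hπ hη hηR (hF.bound f hf)
  have e2 := avg_sub_avg_le_of_kl hb1 hπ hη hηR (hF.bound (-f) (hF.neg_mem f hf))
  rw [avg_neg_right, avg_neg_right] at e2
  have e3 := ha3 (-f) (hF.neg_mem f hf)
  rw [avg_neg_right] at e3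
  simp only [Pi.neg_apply] at e3
  have e4 := hb3 f hf
  have e5 : kl (m a) π / (1 / 32) ≤ 1 / 8 := by
    rw [div_le_iff₀ hη]; linarith
  have e6 : kl (m b) π / (1 / 32) ≤ 1 / 8 := by
    rw [div_le_iff₀ hη]; linarith
  norm_num at e1 e2 e5 e6
  linarith

open Classical in
/-- The level recursion. -/
lemma level_count {F : Set (ι → ℝ)} (hF : FamilyData F 2) (hD : KLDich F) {Q : Finset (ι → ℝ)}
    {ε : ℝ} (hε : 0 < ε) (hQ : ∀ f ∈ F, ∃ q ∈ Q, ∀ i, |f i - q i| ≤ ε)
    (hsep : ∀ i j : ι, i ≠ j → ∃ f ∈ F, 1 < f i - f j) (s r G : ℕ) (hr : 1 ≤ r)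
    (hG : (1 / 256 : ℝ) * r ^ s / (2 * ε) / (1 / 1024) < 2 ^ G) :
    ∀ i : ℕ, i ≤ s → ∀ (u : ℝ), 0 ≤ u → u + 2 * ε * i ≤ 1 / 4 →
      ∀ (π : ι → ℝ) (A : Finset ι) (m : ι → ι → ℝ), IsPosProb π →
      (∀ x ∈ A, IsProb (m x) ∧ kl (m x) π ≤ (1 / 256 : ℝ) * r ^ i ∧
        ∀ f ∈ F, avg (m x) f - f x ≤ u) →
      A.card ≤ (((G * Q.card + 1) ^ (2 * r)) ^ i) := by
  have hrR : (1 : ℝ) ≤ r := by exact_mod_cast hr
  intro i
  induction i with
  | zero =>
    intro _ u _ hu π A m hπ hm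
    simp only [pow_zero, mul_one, Nat.cast_zero, mul_zero, add_zero] at hm hu ⊢
    exact level_zero hF hsep hπ hu hm
  | succ i ih =>
    intro his u hu0 hu π A m hπ hm
    have his' : i ≤ s := by omega
    have hv : u + 2 * ε + 2 * ε * i ≤ 1 / 4 := by
      push_cast at hu
      linarith
    set β : ℝ := (1 / 256 : ℝ) * r ^ i with hβdef
    have hβ : 0 < β := by positivity
    have hβ1 : (1 / 256 : ℝ) ≤ β := by
      rw [hβdef]
      have : (1 : ℝ) ≤ r ^ i := one_le_pow₀ hrR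
      linarith
    have hβs : (1 / 256 : ℝ) * r ^ (i + 1) ≤ (1 / 256 : ℝ) * r ^ s := by
      have : (r : ℝ) ^ (i + 1) ≤ r ^ s := pow_le_pow_right₀ hrR his
      linarith
    set C := ((G * Q.card + 1) ^ (2 * r)) ^ i with hC
    -- the decomposition of a set at one step
    have hsteep : ∀ (π : ι → ℝ) (S : Finset ι), IsPosProb π →
        (∀ x ∈ S, ∃ μ', IsProb μ' ∧ kl μ' π ≤ β ∧ ∀ f ∈ F, avg μ' f - f x ≤ u + 2 * ε) →
        S.card ≤ C := by
      intro π S hπ hS
      choose! m' hm' using hS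
      refine ih his' (u + 2 * ε) (by positivity) hv π S m' hπ ?_
      intro x hx
      obtain ⟨h1, h2, h3⟩ := hm' x hx
      exact ⟨h1, h2, h3⟩
    have halt : ∀ (N : ℕ), N ≤ 2 * r → ∀ (π : ι → ℝ) (x : ι), IsPosProb π →
        (IsProb (m x) ∧ kl (m x) π ≤ N * (β / 2) ∧ ∀ f ∈ F, avg (m x) f - f x ≤ u) →
        (∃ μ', IsProb μ' ∧ kl μ' π ≤ β ∧ ∀ f ∈ F, avg μ' f - f x ≤ u + 2 * ε) ∨
        (∃ k ∈ Finset.range G, ∃ q ∈ Q,
          kl (m x) (tilt π (((1 / 1024 : ℝ) * 2 ^ k) • q)) ≤ kl (m x) π - β / 2) := by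
      intro N hN π x hπ h
      obtain ⟨h1, h2, h3⟩ := h
      have hNR : (N : ℝ) ≤ 2 * r := by exact_mod_cast hN
      have hbud : kl (m x) π ≤ (1 / 256 : ℝ) * r ^ s := by
        refine h2.trans (le_trans ?_ hβs)
        rw [pow_succ, hβdef]
        have : (N : ℝ) * ((1 / 256 : ℝ) * (r : ℝ) ^ i / 2) ≤
            (2 * r) * ((1 / 256 : ℝ) * (r : ℝ) ^ i / 2) :=
          mul_le_mul_of_nonneg_right hNR (by positivity)
        nlinarith
      refine step_or_tilt hF hD hε hQ (t₀ := 1 / 1024) (by norm_num) (by linarith) hβ hG hπ h1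
        hbud hu0 h3
    -- the inner induction on the relative entropy
    have hinner : ∀ (N : ℕ), N ≤ 2 * r → ∀ (π : ι → ℝ) (A : Finset ι), IsPosProb π →
        (∀ x ∈ A, IsProb (m x) ∧ kl (m x) π ≤ N * (β / 2) ∧ ∀ f ∈ F, avg (m x) f - f x ≤ u) →
        A.card ≤ C * (G * Q.card + 1) ^ N := by
      intro N
      induction N with
      | zero =>
        intro hN π A hπ hm'
        rw [pow_zero, mul_one]
        refine hsteep π A hπ (fun x hx => ?_)
        rcases halt 0 hN π x hπ (hm' x hx) with h | ⟨k, _, q, _, h⟩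
        · exact h
        · exfalso
          have h1 := kl_nonneg (hm' x hx).1 (isPosProb_tilt hπ (((1 / 1024 : ℝ) * 2 ^ k) • q))
          have h2 := (hm' x hx).2.1
          simp only [Nat.cast_zero, zero_mul] at h2
          linarith
      | succ N ihN =>
        intro hN π A hπ hm'
        have hN' : N ≤ 2 * r := by omega
        let St : Finset ι := A.filter (fun x => ∃ μ', IsProb μ' ∧ kl μ' π ≤ β ∧
          ∀ f ∈ F, avg μ' f - f x ≤ u + 2 * ε)
        let tq : ℕ × (ι → ℝ) → (ι → ℝ) := fun p => tilt π (((1 / 1024 : ℝ) * 2 ^ p.1) • p.2)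
        let fib : ℕ × (ι → ℝ) → Finset ι := fun p =>
          A.filter (fun x => kl (m x) (tq p) ≤ kl (m x) π - β / 2)
        have hcover : A ⊆ St ∪ ((Finset.range G) ×ˢ Q).biUnion fib := by
          intro x hx
          rcases halt (N + 1) hN π x hπ (hm' x hx) with h | ⟨k, hk, q, hq, h⟩
          · exact Finset.mem_union_left _ (Finset.mem_filter.mpr ⟨hx, h⟩)
          · refine Finset.mem_union_right _ (Finset.mem_biUnion.mpr ⟨(k, q), ?_, ?_⟩)
            · exact Finset.mem_product.mpr ⟨hk, hq⟩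
            · exact Finset.mem_filter.mpr ⟨hx, h⟩
        have hSt : St.card ≤ C := hsteep π St hπ (fun x hx => (Finset.mem_filter.mp hx).2)
        have hfib : ∀ p ∈ (Finset.range G) ×ˢ Q, (fib p).card ≤ C * (G * Q.card + 1) ^ N := by
          intro p _
          refine ihN hN' (tq p) (fib p) (isPosProb_tilt hπ _) (fun x hx => ?_)
          obtain ⟨hxA, hxk⟩ := Finset.mem_filter.mp hx
          obtain ⟨h1, h2, h3⟩ := hm' x hxA
          refine ⟨h1, ?_, h3⟩
          refine hxk.trans ?_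
          push_cast at h2
          linarith
        calc A.card ≤ (St ∪ ((Finset.range G) ×ˢ Q).biUnion fib).card := Finset.card_le_card hcover
          _ ≤ St.card + (((Finset.range G) ×ˢ Q).biUnion fib).card := Finset.card_union_le _ _
          _ ≤ C + ∑ p ∈ (Finset.range G) ×ˢ Q, (fib p).card :=
              Nat.add_le_add hSt Finset.card_biUnion_le
          _ ≤ C + ∑ _p ∈ (Finset.range G) ×ˢ Q, C * (G * Q.card + 1) ^ N :=
              Nat.add_le_add_left (Finset.sum_le_sum hfib) C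
          _ = C + G * Q.card * (C * (G * Q.card + 1) ^ N) := by
              simp [Finset.card_product]
          _ ≤ C * (G * Q.card + 1) ^ (N + 1) := by
              have : C ≤ C * (G * Q.card + 1) ^ N :=
                Nat.le_mul_of_pos_right _ (Nat.pos_of_ne_zero (by positivity))
              rw [pow_succ]
              nlinarith
    have hfinal := hinner (2 * r) le_rfl π A hπ (fun x hx => by
      obtain ⟨h1, h2, h3⟩ := hm x hx
      refine ⟨h1, ?_, h3⟩
      refine h2.trans (le_of_eq ?_)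
      rw [hβdef, pow_succ]
      push_cast
      ring)
    rw [pow_succ]
    exact hfinal

end Vale.Agent.Lib.P126
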