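import Vale.Agent.Lib.P126.Main

/-!
The form with losses logarithmic in the entropy itself.
-/

namespace Vale.Agent.Lib.P126

open Finset
open scoped Pointwise InnerProductSpace

variable {E : Type*} [NormedAddCommGroup E] [InnerProductSpace ℝ E]

lemma covNum_anti [FiniteDimensional ℝ E] {K L : Set E} (hK : IsSymBody K) (hL : IsSymBody L)
    {ρ ρ' : ℝ} (hρ : 0 < ρ) (hρρ' : ρ ≤ ρ') :
    Real.log (covNum (polarSet L) (ρ' • polarSet K)) ≤
      Real.log (covNum (polarSet L) (ρ • polarSet K)) := by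
  obtain ⟨t, ht1, ht2⟩ := exists_polar_cover hK hL hρ
  have hsub : ρ • polarSet K ⊆ ρ' • polarSet K := by
    intro u hu
    obtain ⟨w, hw, rfl⟩ := Set.mem_smul_set.mp hu
    have hρ'pos : 0 < ρ' := by linarith
    refine Set.mem_smul_set.mpr ⟨(ρ / ρ') • w, ?_, ?_⟩
    · have h1 : ρ / ρ' ≤ 1 := (div_le_one hρ'pos).mpr hρρ'
      have h2 := polarSet_convex K hw (polarSet_zero K) (a := ρ / ρ') (b := 1 - ρ / ρ')
        (by positivity) (by linarith) (by ring)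
      simpa using h2
    · rw [smul_smul]
      congr 1
      field_simp
  have hcov : polarSet L ⊆ ⋃ x ∈ t, x +ᵥ (ρ' • polarSet K) := by
    intro y hy
    obtain ⟨c, hc, b, hb, rfl⟩ := exists_of_cover ht2 hy
    simp only [Set.mem_iUnion, exists_prop]
    exact ⟨c, hc, b, hsub hb, rfl⟩
  have h := covNum_le hcov
  rw [ht1] at h
  by_cases h0 : covNum (polarSet L) (ρ' • polarSet K) = 0
  · rw [h0]
    simpa using Real.log_natCast_nonneg (covNum (polarSet L) (ρ • polarSet K))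
  · refine Real.log_le_log ?_ (by exact_mod_cast h)
    exact_mod_cast Nat.pos_of_ne_zero h0

/-- `(n + 1)^2 ≤ 2^n` from six on. -/
lemma succ_sq_le_two_pow {n : ℕ} (hn : 6 ≤ n) : (n + 1) ^ 2 ≤ 2 ^ n := by
  induction n, hn using Nat.le_induction with
  | base => norm_num
  | succ n hn ih =>
    rw [pow_succ 2 n]
    nlinarith

/-- The numerical choice of the parameter. -/
lemma choice_numeric {m : ℝ} (hm : 0 ≤ m) {J : ℕ} (hJ6 : 6 ≤ J)
    (hJℓ : 4 * Real.log (3 + m) ≤ J) : ((J : ℝ) + 1) * (3 + m) ≤ 2 ^ J := by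
  have h3 : (0 : ℝ) < 3 + m := by linarith
  have h1 : ((J : ℝ) + 1) ^ 2 ≤ 2 ^ J := by exact_mod_cast succ_sq_le_two_pow hJ6
  have h2 : (3 + m) ^ 2 ≤ 2 ^ J := by
    have e1 : (3 + m) ^ 2 = Real.exp (2 * Real.log (3 + m)) := by
      rw [two_mul, Real.exp_add, Real.exp_log h3]
      ring
    have e2 : (2 : ℝ) ^ J = Real.exp (J * Real.log 2) := by
      rw [mul_comm, Real.exp_mul, Real.exp_log (by norm_num)]
      simp
    rw [e1, e2]
    apply Real.exp_le_exp.mpr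
    have hlog2 := Real.log_two_gt_d9
    have hJnn : (0 : ℝ) ≤ J := by positivity
    nlinarith
  have hpos : (0 : ℝ) ≤ ((J : ℝ) + 1) * (3 + m) := by positivity
  have hsq : (((J : ℝ) + 1) * (3 + m)) ^ 2 ≤ ((2 : ℝ) ^ J) ^ 2 := by
    rw [mul_pow, sq ((2 : ℝ) ^ J)]
    exact mul_le_mul h1 h2 (by positivity) (by positivity)
  exact (pow_le_pow_iff_left₀ hpos (by positivity) (by norm_num)).mp hsq

/-- Bound on the number of sparse residues. -/
lemma clog_numeric {ℓ : ℝ} (hℓ : 1 ≤ ℓ) {J : ℕ} (hJ : (J : ℝ) + 1 ≤ 7 * ℓ) :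
    (Nat.clog 2 (1024 * (J + 1)) : ℝ) ≤ 12 * Real.log (3 + ℓ) := by
  have hbig : 1 < 1024 * (J + 1) := by omega
  have hlt : 2 ^ (Nat.clog 2 (1024 * (J + 1))).pred < 1024 * (J + 1) :=
    Nat.pow_pred_clog_lt_self (by norm_num) hbig
  obtain ⟨c, hc⟩ : ∃ c, c = Nat.clog 2 (1024 * (J + 1)) := ⟨_, rfl⟩
  rw [← hc] at hlt ⊢
  have hcpos : 1 ≤ c := by
    rw [hc]
    exact Nat.clog_pos (by norm_num) (by omega)
  have hltR : (2 : ℝ) ^ c.pred < 1024 * ((J : ℝ) + 1) := by exact_mod_cast hlt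
  have hcp : ((c.pred : ℕ) : ℝ) = (c : ℝ) - 1 := by
    have : c = c.pred + 1 := (Nat.succ_pred_eq_of_pos hcpos).symm
    rw [this]
    simp
  have hlog := Real.log_lt_log (by positivity) hltR
  rw [Real.log_pow, hcp] at hlog
  have hlog2 := Real.log_two_gt_d9
  have hlog2' := Real.log_two_lt_d9
  have hJpos : (0 : ℝ) < (J : ℝ) + 1 := by positivity
  have hℓpos : 0 < ℓ := by linarith
  have e1 : Real.log (1024 * ((J : ℝ) + 1)) ≤ 10 * Real.log 2 + Real.log (7 * ℓ) := by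
    have : (1024 : ℝ) = 2 ^ 10 := by norm_num
    rw [Real.log_mul (by norm_num) hJpos.ne', this, Real.log_pow]
    have := Real.log_le_log hJpos hJ
    push_cast
    linarith
  have e2 : Real.log (7 * ℓ) ≤ 3 * Real.log 2 + Real.log ℓ := by
    have h8 : (7 : ℝ) ≤ 2 ^ 3 := by norm_num
    have h9 : Real.log 7 ≤ Real.log (2 ^ 3) := Real.log_le_log (by norm_num) h8
    rw [Real.log_pow] at h9
    rw [Real.log_mul (by norm_num) hℓpos.ne']
    push_cast at h9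
    linarith
  have e3 : Real.log ℓ ≤ Real.log (3 + ℓ) := Real.log_le_log hℓpos (by linarith)
  have e4 : 2 * Real.log 2 ≤ Real.log (3 + ℓ) := by
    have : (2 : ℝ) ^ 2 ≤ 3 + ℓ := by linarith
    have h := Real.log_le_log (by norm_num) this
    rw [Real.log_pow] at h
    push_cast at h
    exact h
  -- now combine: (c - 1) log 2 < 13 log 2 + log(3 + ℓ)
  have e5 : ((c : ℝ) - 1) * Real.log 2 < 13 * Real.log 2 + Real.log (3 + ℓ) := by linarith
  have e6 : (c : ℝ) * Real.log 2 < 14 * Real.log 2 + Real.log (3 + ℓ) := by linarith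
  -- divide by log 2, using 1 / log 2 < 3/2
  have hL : 0 < Real.log (3 + ℓ) := by linarith
  by_contra hcon
  push Not at hcon
  have e7 : 12 * Real.log (3 + ℓ) * Real.log 2 < (c : ℝ) * Real.log 2 :=
    mul_lt_mul_of_pos_right hcon (by linarith)
  nlinarith

/-- The main bound with losses logarithmic in the entropy. -/
theorem log_form [FiniteDimensional ℝ E] {K L : Set E} (hK : IsSymBody K) (hL : IsSymBody L) :
    Real.log (covNum K L) ≤ 1400000 * Real.log (3 + Real.log (covNum K L)) *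
        Real.log (3 + Real.log (3 + Real.log (covNum K L))) *
      Real.log (covNum (polarSet L) ((30000 * Real.log (3 + Real.log (covNum K L)))⁻¹ •
        polarSet K)) := by
  obtain ⟨m, hmdef⟩ : ∃ m : ℝ, m = Real.log (covNum K L) := ⟨_, rfl⟩
  rw [← hmdef]
  have hm : 0 ≤ m := by rw [hmdef]; exact Real.log_natCast_nonneg _
  obtain ⟨ℓ, hℓdef⟩ : ∃ ℓ : ℝ, ℓ = Real.log (3 + m) := ⟨_, rfl⟩
  rw [← hℓdef]
  have hℓ1 : 1 ≤ ℓ := by
    rw [hℓdef]
    rw [Real.le_log_iff_exp_le (by linarith)]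
    have := Real.exp_one_lt_d9
    linarith
  have hℓpos : 0 < ℓ := by linarith
  obtain ⟨J, hJdef⟩ : ∃ J : ℕ, J = ⌈4 * ℓ⌉₊ + 1 := ⟨_, rfl⟩
  have hceil1 : 4 * ℓ ≤ ⌈4 * ℓ⌉₊ := Nat.le_ceil _
  have hceil2 : ((⌈4 * ℓ⌉₊ : ℕ) : ℝ) < 4 * ℓ + 1 := Nat.ceil_lt_add_one (by positivity)
  have hJR : (J : ℝ) = ⌈4 * ℓ⌉₊ + 1 := by rw [hJdef]; push_cast; ring
  have hJ6 : 6 ≤ J := by
    have h5 : 5 ≤ ⌈4 * ℓ⌉₊ := by
      have h4 : (4 : ℝ) ≤ 4 * ℓ := by linarith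
      by_contra hc
      push Not at hc
      have h4' : ⌈4 * ℓ⌉₊ ≤ 4 := by omega
      have hc2 : 4 * ℓ ≤ ⌈4 * ℓ⌉₊ := hceil1
      have hc3 : ((⌈4 * ℓ⌉₊ : ℕ) : ℝ) ≤ 4 := by exact_mod_cast h4'
      -- the strict inequality log 3 > 1 is needed here
      have hstrict : 1 < ℓ := by
        rw [hℓdef]
        rw [Real.lt_log_iff_exp_lt (by linarith)]
        have := Real.exp_one_lt_d9
        linarith
      linarith
    omega
  have hJ7 : (J : ℝ) + 1 ≤ 7 * ℓ := by rw [hJR]; linarith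
  have hJ4 : 4 * ℓ ≤ J := by rw [hJR]; linarith
  obtain ⟨J', hJ'def⟩ : ∃ J' : ℕ, J' = Nat.clog 2 (1024 * (J + 1)) := ⟨_, rfl⟩
  have hJ'12 : (J' : ℝ) ≤ 12 * Real.log (3 + ℓ) := by
    rw [hJ'def]; exact clog_numeric hℓ1 hJ7
  have hJ'pow : 1024 * (((1 : ℝ)) * ((J : ℝ) + 1)) ≤ 2 ^ J' := by
    have : 1024 * (J + 1) ≤ 2 ^ J' := by
      rw [hJ'def]; exact Nat.le_pow_clog (by norm_num) _
    have h2 : ((1024 * (J + 1) : ℕ) : ℝ) ≤ ((2 ^ J' : ℕ) : ℝ) := by exact_mod_cast this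
    push_cast at h2
    linarith
  have hmain := main_general hK hL J J' (B := 1) le_rfl (by linarith)
  rw [← hmdef] at hmain
  simp only [mul_one] at hmain
  -- compare the scales
  have hscale : (30000 * ℓ)⁻¹ ≤ (4096 * ((J : ℝ) + 1))⁻¹ := by
    apply inv_anti₀ (by positivity)
    nlinarith
  have hmono := covNum_anti hK hL (ρ := (30000 * ℓ)⁻¹) (ρ' := (4096 * ((J : ℝ) + 1))⁻¹)
    (by positivity) hscale
  obtain ⟨W, hWdef⟩ : ∃ W : ℝ, W = Real.log (covNum (polarSet L) ((30000 * ℓ)⁻¹ • polarSet K)) :=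
    ⟨_, rfl⟩
  rw [← hWdef] at hmono ⊢
  obtain ⟨W₀, hW₀def⟩ : ∃ W₀ : ℝ,
      W₀ = Real.log (covNum (polarSet L) ((4096 * ((J : ℝ) + 1))⁻¹ • polarSet K)) := ⟨_, rfl⟩
  rw [← hW₀def] at hmono hmain
  have hW₀nn : 0 ≤ W₀ := by rw [hW₀def]; exact Real.log_natCast_nonneg _
  have hWnn : 0 ≤ W := hW₀nn.trans hmono
  have hlog3 : 1 ≤ Real.log (3 + ℓ) := by
    rw [Real.le_log_iff_exp_le (by linarith)]
    have := Real.exp_one_lt_d9
    linarith
  -- the constant is at least one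
  have hb1 : 1 ≤ 1400000 * ℓ * Real.log (3 + ℓ) := by nlinarith
  by_cases hcase : m ≤ W
  · nlinarith
  push Not at hcase
  have hnum := choice_numeric hm hJ6 (by rw [← hℓdef]; exact hJ4)
  have hdecay : ((J : ℝ) + 1) * ((2 * 1 : ℝ)⁻¹) ^ J * m ≤ 1 := by
    have h2 : ((2 * 1 : ℝ)⁻¹) ^ J = ((2 : ℝ) ^ J)⁻¹ := by
      rw [mul_one, inv_pow]
    rw [h2]
    have hp : (0 : ℝ) < 2 ^ J := by positivity
    rw [mul_assoc, mul_comm ((2 : ℝ) ^ J)⁻¹ m, ← mul_assoc, ← div_eq_mul_inv, div_le_one hp]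
    nlinarith
  have hquad : 16384 * ((J : ℝ) + 1) ^ 2 * ((2 * 1 : ℝ)⁻¹) ^ J * W₀ ^ 2 ≤
      16384 * ((J : ℝ) + 1) * W₀ := by
    have h1 : W₀ ^ 2 ≤ m * W₀ := by
      have : W₀ ≤ m := hmono.trans hcase.le
      nlinarith
    have hD : 0 ≤ ((J : ℝ) + 1) * ((2 * 1 : ℝ)⁻¹) ^ J := by positivity
    calc 16384 * ((J : ℝ) + 1) ^ 2 * ((2 * 1 : ℝ)⁻¹) ^ J * W₀ ^ 2
        = 16384 * ((J : ℝ) + 1) * (((J : ℝ) + 1) * ((2 * 1 : ℝ)⁻¹) ^ J) * W₀ ^ 2 := by ring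
      _ ≤ 16384 * ((J : ℝ) + 1) * (((J : ℝ) + 1) * ((2 * 1 : ℝ)⁻¹) ^ J) * (m * W₀) := by
          gcongr
      _ = 16384 * ((J : ℝ) + 1) * (((J : ℝ) + 1) * ((2 * 1 : ℝ)⁻¹) ^ J * m) * W₀ := by ring
      _ ≤ 16384 * ((J : ℝ) + 1) * 1 * W₀ := by gcongr
      _ = _ := by ring
  have hJ'nn : (0 : ℝ) ≤ J' := by positivity
  have hstep : m ≤ J' * (16395 * ((J : ℝ) + 1) * W₀) := by
    refine hmain.trans ?_
    apply mul_le_mul_of_nonneg_left _ hJ'nn
    have : ((J : ℝ) + 11) * W₀ ≤ 11 * ((J : ℝ) + 1) * W₀ := by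
      have hJnn : (0 : ℝ) ≤ J := by positivity
      nlinarith
    linarith
  have hfin : (J' : ℝ) * (16395 * ((J : ℝ) + 1) * W₀) ≤
      (12 * Real.log (3 + ℓ)) * (16395 * (7 * ℓ) * W) := by
    have hJ1 : (0 : ℝ) < (J : ℝ) + 1 := by positivity
    have h1 : 16395 * ((J : ℝ) + 1) * W₀ ≤ 16395 * (7 * ℓ) * W := by
      have : ((J : ℝ) + 1) * W₀ ≤ (7 * ℓ) * W := mul_le_mul hJ7 hmono hW₀nn (by positivity)
      linarith
    exact mul_le_mul hJ'12 h1 (by positivity) (by positivity)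
  have hconst : (12 * Real.log (3 + ℓ)) * (16395 * (7 * ℓ) * W) ≤
      1400000 * ℓ * Real.log (3 + ℓ) * W := by
    have h0 : 0 ≤ ℓ * Real.log (3 + ℓ) * W := by positivity
    nlinarith
  linarith

end Vale.Agent.Lib.P126
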