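import Vale.Agent.Lib.P126.Multi

/-!
The telescoping over scales and the main theorem.
-/

namespace Vale.Agent.Lib.P126

open Finset
open scoped Pointwise InnerProductSpace

variable {E : Type*} [NormedAddCommGroup E] [InnerProductSpace ℝ E]

/-- The entropy function of one scale. -/
noncomputable def scaleCost (J : ℕ) (B a : ℝ) : ℝ :=
  (J + 11) * a + 16384 * ((J : ℝ) + 1) ^ 2 * ((2 * B)⁻¹) ^ J * a ^ 2

lemma scaleCost_nonneg (J : ℕ) {B a : ℝ} (hB : 1 ≤ B) (ha : 0 ≤ a) : 0 ≤ scaleCost J B a := by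
  have hBpos : 0 < B := by linarith
  unfold scaleCost
  positivity

/-- The bound at one scale, for separated points inside one larger translate of `L`. -/
lemma level_bound [FiniteDimensional ℝ E] {K L : Set E} (hK : IsSymBody K) (hL : IsSymBody L)
    (J : ℕ) {B : ℝ} (hB : 1 ≤ B) {P : Finset E} {i : ℕ} (hP : ∀ p ∈ P, p ∈ polarSet L)
    (hnet : ∀ y ∈ polarSet L, ∃ p ∈ P, ∀ x ∈ lev K L i, |⟪x, y - p⟫_ℝ| ≤ 1 / (64 * B * (J + 1)))
    {S : Finset E} {s₀ : E} (hs₀ : s₀ ∈ K) (hSK : ∀ s ∈ S, s ∈ K)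
    (hS1 : ∀ s ∈ S, s - s₀ ∈ ((2 : ℝ) ^ (i + 1) / 2) • L)
    (hS2 : ∀ a ∈ S, ∀ b ∈ S, a ≠ b → a - b ∉ ((2 : ℝ) ^ i / 2) • L) :
    Real.log S.card ≤ scaleCost J B (Real.log P.card) := by
  have hr : (0 : ℝ) < (2 : ℝ) ^ i / 2 := by positivity
  obtain ⟨r, hrdef⟩ : ∃ r : ℝ, r = (2 : ℝ) ^ i / 2 := ⟨_, rfl⟩
  rw [← hrdef] at hS2 hr
  have hr2 : (2 : ℝ) ^ (i + 1) / 2 = 2 * r := by
    rw [hrdef, pow_succ]; ring
  rw [hr2] at hS1
  let z : {s // s ∈ S} → E := fun s => r⁻¹ • (s.1 - s₀)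
  have hzl : ∀ s : {s // s ∈ S}, ∃ l ∈ L, z s = (2 : ℝ) • l := by
    intro s
    obtain ⟨l, hl, he⟩ := Set.mem_smul_set.mp (hS1 s.1 s.2)
    refine ⟨l, hl, ?_⟩
    simp only [z]
    rw [← he, smul_smul]
    congr 1
    field_simp
  have hzlev : ∀ s : {s // s ∈ S}, z s ∈ lev K L i := by
    intro s
    obtain ⟨l, hl, he⟩ := hzl s
    refine ⟨?_, ?_⟩
    · have h1 := hK.half_sub (hSK s.1 s.2) hs₀
      convert h1 using 1
      simp only [z]
      rw [smul_smul]
      congr 1
      rw [hrdef]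
      field_simp
      norm_num
    · rw [he, smul_smul]
      norm_num
      exact hl
  have hmain := single_scale (ι := {s // s ∈ S}) hL.isCompact hL.convex hL.symm ⟨0, hL.zero_mem⟩ z
    (by
      intro y hy s
      obtain ⟨l, hl, he⟩ := hzl s
      rw [he, real_inner_smul_right, abs_mul, abs_of_pos (by norm_num : (0 : ℝ) < 2)]
      have := abs_inner_le_of_polar hL.symm hy hl
      linarith)
    (by
      intro a b hab hin
      apply hS2 a.1 a.2 b.1 b.2 (fun h => hab (Subtype.ext h))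
      refine Set.mem_smul_set.mpr ⟨_, hin, ?_⟩
      simp only [z]
      rw [← smul_sub, smul_smul, mul_inv_cancel₀ hr.ne', one_smul]
      module)
    J hB hP
    (by
      intro y hy
      obtain ⟨p, hp, h⟩ := hnet y hy
      refine ⟨p, hp, fun s => ?_⟩
      have := h (z s) (hzlev s)
      rw [inner_sub_right, real_inner_comm y (z s), real_inner_comm p (z s)] at this
      exact this)
  rw [Fintype.card_coe] at hmain
  exact hmain

/-- The telescoping over scales. -/
lemma telescope [FiniteDimensional ℝ E] {K L : Set E} (hK : IsSymBody K) (hL : IsSymBody L)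
    (J : ℕ) {B : ℝ} (hB : 1 ≤ B) {P : ℕ → Finset E} (hP : ∀ i, ∀ p ∈ P i, p ∈ polarSet L)
    (hnet : ∀ i, ∀ y ∈ polarSet L, ∃ p ∈ P i, ∀ x ∈ lev K L i,
      |⟪x, y - p⟫_ℝ| ≤ 1 / (64 * B * (J + 1)))
    {C : Finset E} (hCK : ∀ c ∈ C, c ∈ K) (hCsep : ∀ a ∈ C, ∀ b ∈ C, a ≠ b → a - b ∉ L) :
    ∀ (i : ℕ) (C' : Finset E) (s₀ : E), C' ⊆ C → s₀ ∈ K →
      (∀ c ∈ C', c - s₀ ∈ ((2 : ℝ) ^ i / 2) • L) →
      Real.log C'.card ≤ ∑ l ∈ Finset.range i, scaleCost J B (Real.log (P l).card) := by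
  classical
  have hGnn : ∀ l, 0 ≤ scaleCost J B (Real.log (P l).card) := fun l =>
    scaleCost_nonneg J hB (Real.log_natCast_nonneg _)
  intro i
  induction i with
  | zero =>
    intro C' s₀ hsub _ hC'
    have hc : C'.card ≤ 1 := by
      refine Finset.card_le_one.mpr (fun a ha b hb => ?_)
      by_contra hne
      apply hCsep a (hsub ha) b (hsub hb) hne
      obtain ⟨l, hl, he⟩ := Set.mem_smul_set.mp (hC' a ha)
      obtain ⟨l', hl', he'⟩ := Set.mem_smul_set.mp (hC' b hb)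
      have h := hL.convex hl (hL.symm _ hl') (a := 1 / 2) (b := 1 / 2) (by norm_num) (by norm_num)
        (by norm_num)
      convert h using 1
      have e : a - b = (a - s₀) - (b - s₀) := by abel
      rw [e, ← he, ← he']
      norm_num
      module
    have hR : (C'.card : ℝ) ≤ 1 := by exact_mod_cast hc
    simp only [Finset.range_zero, Finset.sum_empty]
    exact Real.log_nonpos (by positivity) hR
  | succ i ih =>
    intro C' s₀ hsub hs₀ hC'
    have hW : 0 ≤ ∑ l ∈ Finset.range i, scaleCost J B (Real.log (P l).card) :=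
      Finset.sum_nonneg (fun l _ => hGnn l)
    by_cases hne : C'.Nonempty
    swap
    · rw [Finset.not_nonempty_iff_eq_empty.mp hne]
      simp only [Finset.card_empty, Nat.cast_zero, Real.log_zero]
      exact Finset.sum_nonneg (fun l _ => hGnn l)
    have hr : (0 : ℝ) < (2 : ℝ) ^ i / 2 := by positivity
    obtain ⟨S, hS1, hS2, hS3⟩ := exists_maximal_sep (↑C' : Set E)
      (fun a b => a - b ∉ ((2 : ℝ) ^ i / 2) • L) C'.card (by
        intro t ht _
        exact Finset.card_le_card (fun x hx => ht x hx))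
    have hzero : (0 : E) ∈ ((2 : ℝ) ^ i / 2) • L :=
      Set.mem_smul_set.mpr ⟨0, hL.zero_mem, by simp⟩
    have hsymm : ∀ w : E, w ∈ ((2 : ℝ) ^ i / 2) • L → -w ∈ ((2 : ℝ) ^ i / 2) • L := by
      intro w hw
      obtain ⟨l, hl, rfl⟩ := Set.mem_smul_set.mp hw
      exact Set.mem_smul_set.mpr ⟨-l, hL.symm _ hl, by simp⟩
    -- every point is near a point of `S`
    have hnear : ∀ c ∈ C', ∃ s ∈ S, c - s ∈ ((2 : ℝ) ^ i / 2) • L := by
      intro c hc
      rcases hS3 c hc with h | ⟨p, hp, hn⟩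
      · exact ⟨c, h, by simpa using hzero⟩
      · refine ⟨p, hp, ?_⟩
        by_contra hcon
        apply hn
        refine ⟨hcon, fun h => hcon ?_⟩
        have := hsymm _ h
        simpa using this
    have hSK : ∀ s ∈ S, s ∈ K := fun s hs => hCK s (hsub (hS1 s hs))
    -- the size of `S`
    have hSlog : Real.log S.card ≤ scaleCost J B (Real.log (P i).card) :=
      level_bound hK hL J hB (hP i) (hnet i) hs₀ hSK (fun s hs => hC' s (hS1 s hs)) hS2
    -- the pieces
    let piece : E → Finset E := fun s => C'.filter (fun c => c - s ∈ ((2 : ℝ) ^ i / 2) • L)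
    have hpiece : ∀ s ∈ S, ((piece s).card : ℝ) ≤
        Real.exp (∑ l ∈ Finset.range i, scaleCost J B (Real.log (P l).card)) := by
      intro s hs
      have h1 : Real.log (piece s).card ≤
          ∑ l ∈ Finset.range i, scaleCost J B (Real.log (P l).card) :=
        ih (piece s) s ((Finset.filter_subset _ _).trans hsub) (hSK s hs)
          (fun c hc => (Finset.mem_filter.mp hc).2)
      by_cases h0 : (piece s).card = 0
      · rw [h0]
        simpa using (Real.exp_pos _).le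
      · have : (0 : ℝ) < (piece s).card := by exact_mod_cast Nat.pos_of_ne_zero h0
        exact (Real.log_le_iff_le_exp this).mp h1
    have hcover : C' ⊆ S.biUnion piece := by
      intro c hc
      obtain ⟨s, hs, h⟩ := hnear c hc
      exact Finset.mem_biUnion.mpr ⟨s, hs, Finset.mem_filter.mpr ⟨hc, h⟩⟩
    have hcard : (C'.card : ℝ) ≤ S.card *
        Real.exp (∑ l ∈ Finset.range i, scaleCost J B (Real.log (P l).card)) := by
      have h1 : C'.card ≤ ∑ s ∈ S, (piece s).card :=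
        (Finset.card_le_card hcover).trans Finset.card_biUnion_le
      have h2 : (C'.card : ℝ) ≤ ∑ s ∈ S, ((piece s).card : ℝ) := by exact_mod_cast h1
      refine h2.trans ?_
      calc ∑ s ∈ S, ((piece s).card : ℝ) ≤
            ∑ _s ∈ S, Real.exp (∑ l ∈ Finset.range i, scaleCost J B (Real.log (P l).card)) :=
            Finset.sum_le_sum hpiece
        _ = _ := by simp
    have hC'pos : (0 : ℝ) < C'.card := by exact_mod_cast Finset.card_pos.mpr hne
    have hSpos : (0 : ℝ) < S.card := by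
      obtain ⟨c, hc⟩ := hne
      obtain ⟨s, hs, _⟩ := hnear c hc
      exact_mod_cast Finset.card_pos.mpr ⟨s, hs⟩
    have hlog := Real.log_le_log hC'pos hcard
    rw [Real.log_mul hSpos.ne' (Real.exp_pos _).ne', Real.log_exp] at hlog
    rw [Finset.sum_range_succ]
    linarith

/-- All of `K` lies in a large multiple of `L`. -/
lemma exists_top {K L : Set E} (hK : IsSymBody K) (hL : IsSymBody L) :
    ∃ I : ℕ, ∀ c ∈ K, c - 0 ∈ ((2 : ℝ) ^ I / 2) • L := by
  obtain ⟨M, hM, hbd⟩ := hK.exists_bound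
  obtain ⟨r, hr, hball⟩ := hL.exists_ball
  obtain ⟨I, hI⟩ := pow_unbounded_of_one_lt (2 * M / r) (by norm_num : (1 : ℝ) < 2)
  refine ⟨I, fun c hc => ?_⟩
  have hpos : (0 : ℝ) < (2 : ℝ) ^ I / 2 := by positivity
  refine Set.mem_smul_set.mpr ⟨((2 : ℝ) ^ I / 2)⁻¹ • c, hball _ ?_, ?_⟩
  · rw [norm_smul, Real.norm_of_nonneg (by positivity), inv_mul_eq_div, div_lt_iff₀ hpos]
    have h1 := hbd c hc
    rw [div_lt_iff₀ hr] at hI
    nlinarith
  · rw [smul_smul, mul_inv_cancel₀ hpos.ne', one_smul, sub_zero]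

/-- A maximal separated subset of `K` with respect to `L`. -/
lemma exists_maximal_packing [FiniteDimensional ℝ E] {K L : Set E} (hK : IsSymBody K)
    (hL : IsSymBody L) :
    ∃ C : Finset E, (∀ c ∈ C, c ∈ K) ∧ (∀ a ∈ C, ∀ b ∈ C, a ≠ b → a - b ∉ L) ∧
      covNum K L ≤ C.card := by
  classical
  obtain ⟨r, hr, hball⟩ := hL.exists_ball
  have hhalf : ∀ w : E, ‖w‖ < r / 2 → w ∈ (1 / 2 : ℝ) • L := by
    intro w hw
    refine Set.mem_smul_set.mpr ⟨(2 : ℝ) • w, hball _ ?_, ?_⟩
    · rw [norm_smul]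
      norm_num
      linarith
    · rw [smul_smul]; norm_num
  obtain ⟨t, ht⟩ := exists_finite_cover hK.isCompact (by positivity) hhalf
  obtain ⟨C, h1, h2, h3⟩ := exists_maximal_sep K (fun a b => a - b ∉ L) t.card (by
    intro s hs hsep
    have hch : ∀ u ∈ s, ∃ c ∈ t, ∃ b ∈ (1 / 2 : ℝ) • L, u = c + b :=
      fun u hu => exists_of_cover ht (hs u hu)
    choose! c hcF hcb using hch
    refine Finset.card_le_card_of_injOn c (fun u hu => hcF u hu) ?_
    intro u hu u' hu' heq
    by_contra hne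
    apply hsep u hu u' hu' hne
    obtain ⟨b, hb, e1⟩ := hcb u hu
    obtain ⟨b', hb', e2⟩ := hcb u' hu'
    obtain ⟨l, hl, rfl⟩ := Set.mem_smul_set.mp hb
    obtain ⟨l', hl', rfl⟩ := Set.mem_smul_set.mp hb'
    have h := hL.half_sub hl hl'
    have hd : u - u' = (1 / 2 : ℝ) • (l - l') := by
      calc u - u' = (c u + (1 / 2 : ℝ) • l) - (c u' + (1 / 2 : ℝ) • l') := by rw [← e1, ← e2]
        _ = (1 / 2 : ℝ) • (l - l') := by
            rw [heq, smul_sub]
            abel
    rw [hd]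
    exact h)
  refine ⟨C, h1, h2, covNum_le ?_⟩
  intro x hx
  simp only [Set.mem_iUnion, exists_prop]
  rcases h3 x hx with h | ⟨p, hp, hn⟩
  · exact ⟨x, h, 0, hL.zero_mem, by simp⟩
  · have hmem : x - p ∈ L := by
      by_contra hcon
      apply hn
      refine ⟨hcon, fun h => hcon ?_⟩
      have := hL.symm _ h
      simpa using this
    exact ⟨p, hp, x - p, hmem, by simp⟩

/-- The main theorem, in finite dimensional inner product spaces. -/
theorem main_general [FiniteDimensional ℝ E] {K L : Set E} (hK : IsSymBody K) (hL : IsSymBody L)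
    (J J' : ℕ) {B : ℝ} (hB : 1 ≤ B) (hJ' : 1024 * B * ((J : ℝ) + 1) ≤ 2 ^ J') :
    Real.log (covNum K L) ≤ J' * ((J + 11) *
        Real.log (covNum (polarSet L) ((4096 * B * ((J : ℝ) + 1))⁻¹ • polarSet K)) +
      16384 * ((J : ℝ) + 1) ^ 2 * ((2 * B)⁻¹) ^ J *
        (Real.log (covNum (polarSet L) ((4096 * B * ((J : ℝ) + 1))⁻¹ • polarSet K))) ^ 2) := by
  classical
  have hBpos : 0 < B := by linarith
  have hJ1 : (0 : ℝ) < (J : ℝ) + 1 := by positivity
  have hBJ : (1 : ℝ) ≤ B * ((J : ℝ) + 1) := by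
    have : (0 : ℝ) ≤ J := by positivity
    nlinarith
  obtain ⟨ε, hε⟩ : ∃ ε : ℝ, ε = 1 / (64 * B * ((J : ℝ) + 1)) := ⟨_, rfl⟩
  have hεpos : 0 < ε := by rw [hε]; positivity
  obtain ⟨ρ, hρdef⟩ : ∃ ρ : ℝ, ρ = (4096 * B * ((J : ℝ) + 1))⁻¹ := ⟨_, rfl⟩
  have hρpos : 0 < ρ := by rw [hρdef]; positivity
  have hρε : ρ = ε / 64 := by
    rw [hρdef, hε]; field_simp; norm_num
  have hρε8 : 8 * ρ < ε := by rw [hρε]; linarith
  obtain ⟨F, hFcard, hF⟩ := exists_polar_cover hK hL hρpos
  rw [← hρdef, ← hFcard]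
  have hFpos : 1 ≤ F.card := by
    have h0 : (0 : E) ∈ polarSet L := polarSet_zero L
    obtain ⟨c, hc, _⟩ := exists_of_cover hF h0
    exact Finset.card_pos.mpr ⟨c, hc⟩
  have hFposR : (1 : ℝ) ≤ F.card := by exact_mod_cast hFpos
  -- nets at each level
  choose P hP1 hP2 hP3 using exists_level_net hK.symm hL.symm hρpos hρε8 hF
  have hPne : ∀ i, 1 ≤ (P i).card := by
    intro i
    obtain ⟨p, hp, _⟩ := hP3 i 0 (polarSet_zero L)
    exact Finset.card_pos.mpr ⟨p, hp⟩
  have hPneR : ∀ i, (1 : ℝ) ≤ (P i).card := fun i => by exact_mod_cast hPne i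
  obtain ⟨W, hWdef⟩ : ∃ W : ℝ, W = Real.log F.card := ⟨_, rfl⟩
  rw [← hWdef]
  have hWnn : 0 ≤ W := by rw [hWdef]; exact Real.log_nonneg hFposR
  -- each level
  have hle : ∀ i, Real.log (P i).card ≤ W := by
    intro i
    rw [hWdef]
    have : (P i).card ≤ F.card := sep_card_le hK.symm hρpos hρε8 hF (hP1 i) (hP2 i)
    exact Real.log_le_log (by linarith [hPneR i]) (by exact_mod_cast this)
  -- sparse levels
  have hηdef : 1 ≤ (2 : ℝ) ^ J' * (ε / 16) := by
    rw [hε]
    have : (2 : ℝ) ^ J' * (1 / (64 * B * ((J : ℝ) + 1)) / 16) =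
        (2 : ℝ) ^ J' / (1024 * B * ((J : ℝ) + 1)) := by
      field_simp; norm_num
    rw [this, le_div_iff₀ (by positivity)]
    linarith
  have hε1 : ε ≤ 1 / 64 := by
    rw [hε, div_le_div_iff₀ (by positivity) (by norm_num)]
    nlinarith
  have hsparse : ∀ r m : ℕ, ∑ j ∈ Finset.range m, Real.log (P (r + j * J')).card ≤ W := by
    intro r m
    obtain ⟨S, hS1, hS2, hS3⟩ := sparse_levels (K := K) hL.symm hεpos rfl (by linarith) hηdef hP1
      hP2 m r
    have hcard : S.card ≤ F.card := by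
      refine cell_bound hK.symm hρpos hF hS1 ?_
      intro u hu u' hu' hne
      obtain ⟨k, hk, h⟩ := hS3 u hu u' hu' hne
      refine ⟨k, hk, lt_of_lt_of_le ?_ h⟩
      have h2 := one_le_two_pow_real r
      rw [hρε]
      nlinarith
    rw [hWdef, ← Real.log_prod (fun j _ => by
      have := hPneR (r + j * J'); intro h0; linarith)]
    have h3 : (∏ j ∈ Finset.range m, ((P (r + j * J')).card : ℝ)) ≤ F.card := by
      have : ((∏ j ∈ Finset.range m, (P (r + j * J')).card : ℕ) : ℝ) ≤ F.card := by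
        rw [← hS2]; exact_mod_cast hcard
      simpa using this
    have h4 : (0 : ℝ) < ∏ j ∈ Finset.range m, ((P (r + j * J')).card : ℝ) :=
      Finset.prod_pos (fun j _ => by linarith [hPneR (r + j * J')])
    exact Real.log_le_log h4 h3
  have hJ'pos : 1 ≤ J' := by
    by_contra hc
    have : J' = 0 := by omega
    rw [this] at hJ'
    norm_num at hJ'
    nlinarith
  have hsum : ∀ I : ℕ, ∑ i ∈ Finset.range I, Real.log (P i).card ≤ J' * W :=
    sum_le_of_residues (fun i => Real.log_natCast_nonneg _) hJ'pos hsparse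
  -- the packing
  obtain ⟨C, hC1, hC2, hC3⟩ := exists_maximal_packing hK hL
  obtain ⟨I, hI⟩ := exists_top hK hL
  have hnet : ∀ i, ∀ y ∈ polarSet L, ∃ p ∈ P i, ∀ x ∈ lev K L i,
      |⟪x, y - p⟫_ℝ| ≤ 1 / (64 * B * ((J : ℝ) + 1)) := by
    rw [← hε]; exact hP3
  have htel := telescope hK hL J hB hP1 hnet hC1 hC2 I C 0 (Finset.Subset.refl C) hK.zero_mem
    (fun c hc => hI c (hC1 c hc))
  -- the sum of costs
  have hcost : ∑ l ∈ Finset.range I, scaleCost J B (Real.log (P l).card) ≤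
      J' * ((J + 11) * W + 16384 * ((J : ℝ) + 1) ^ 2 * ((2 * B)⁻¹) ^ J * W ^ 2) := by
    obtain ⟨D, hD⟩ : ∃ D : ℝ, D = 16384 * ((J : ℝ) + 1) ^ 2 * ((2 * B)⁻¹) ^ J := ⟨_, rfl⟩
    have hDnn : 0 ≤ D := by rw [hD]; positivity
    rw [← hD]
    have hterm : ∀ l ∈ Finset.range I, scaleCost J B (Real.log (P l).card) ≤
        ((J : ℝ) + 11 + D * W) * Real.log (P l).card := by
      intro l _
      unfold scaleCost
      rw [← hD]
      have h1 := hle l
      have h2 : 0 ≤ Real.log (P l).card := Real.log_natCast_nonneg _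
      have h3 : D * (Real.log (P l).card) ^ 2 ≤ D * W * Real.log (P l).card := by
        have : (Real.log (P l).card) ^ 2 ≤ W * Real.log (P l).card := by nlinarith
        calc D * (Real.log (P l).card) ^ 2 ≤ D * (W * Real.log (P l).card) :=
              mul_le_mul_of_nonneg_left this hDnn
          _ = _ := by ring
      nlinarith
    calc ∑ l ∈ Finset.range I, scaleCost J B (Real.log (P l).card)
        ≤ ∑ l ∈ Finset.range I, ((J : ℝ) + 11 + D * W) * Real.log (P l).card :=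
          Finset.sum_le_sum hterm
      _ = ((J : ℝ) + 11 + D * W) * ∑ l ∈ Finset.range I, Real.log (P l).card := by
          rw [Finset.mul_sum]
      _ ≤ ((J : ℝ) + 11 + D * W) * (J' * W) :=
          mul_le_mul_of_nonneg_left (hsum I) (by positivity)
      _ = J' * ((J + 11) * W + D * W ^ 2) := by ring
  -- finish
  have hlogcov : Real.log (covNum K L) ≤ Real.log C.card := by
    by_cases h0 : covNum K L = 0
    · rw [h0]
      simpa using Real.log_natCast_nonneg C.card
    · refine Real.log_le_log ?_ (by exact_mod_cast hC3)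
      exact_mod_cast Nat.pos_of_ne_zero h0
  linarith

lemma polar_polar [FiniteDimensional ℝ E] {K : Set E} (hK : IsSymBody K) :
    polarSet (polarSet K) = K := by
  ext x
  constructor
  · intro hx
    by_contra hxK
    obtain ⟨y, hy, h⟩ := exists_polar_of_notMem hK.isCompact hK.convex hK.symm ⟨0, hK.zero_mem⟩ hxK
    have := hx y hy
    linarith
  · intro hx y hy
    rw [real_inner_comm]
    exact hy x hx

lemma polarSet_smul {a : ℝ} (ha : 0 < a) (S : Set E) : polarSet (a • S) = a⁻¹ • polarSet S := by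
  ext y
  constructor
  · intro hy
    refine Set.mem_smul_set.mpr ⟨a • y, ?_, ?_⟩
    · intro x hx
      have := hy (a • x) (Set.smul_mem_smul_set hx)
      rw [real_inner_smul_left] at this
      rw [real_inner_smul_right]
      exact this
    · rw [smul_smul, inv_mul_cancel₀ ha.ne', one_smul]
  · intro hy
    obtain ⟨w, hw, rfl⟩ := Set.mem_smul_set.mp hy
    intro x hx
    obtain ⟨v, hv, rfl⟩ := Set.mem_smul_set.mp hx
    rw [real_inner_smul_left, real_inner_smul_right, ← mul_assoc, mul_inv_cancel₀ ha.ne', one_mul]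
    exact hw v hv

lemma IsSymBody.polar [FiniteDimensional ℝ E] {K : Set E} (hK : IsSymBody K) :
    IsSymBody (polarSet K) := by
  obtain ⟨hcK⟩ : Nonempty (IsCompact K) := ⟨hK.isCompact⟩
  refine ⟨?_, polarSet_convex K, ?_, fun y hy => polarSet_neg hK.symm hy⟩
  · exact polarSet_compact (L := K) hK
  · obtain ⟨M, hM, hbd⟩ := hK.exists_bound
    refine ⟨0, mem_interior.mpr ⟨Metric.ball 0 (1 / M), ?_, Metric.isOpen_ball, ?_⟩⟩
    · intro w hw
      rw [mem_ball_zero_iff] at hw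
      exact mem_polarSet_of_norm hM hbd hw.le
    · exact Metric.mem_ball_self (by positivity)

lemma IsSymBody.smul {K : Set E} (hK : IsSymBody K) {a : ℝ} (ha : 0 < a) : IsSymBody (a • K) := by
  refine ⟨hK.isCompact.smul a, hK.convex.smul a, ?_, ?_⟩
  · rw [interior_smul₀ ha.ne']
    exact hK.interior_nonempty.smul_set
  · intro x hx
    obtain ⟨w, hw, rfl⟩ := Set.mem_smul_set.mp hx
    exact Set.mem_smul_set.mpr ⟨-w, hK.symm w hw, by simp⟩

lemma covNum_smul_aux {c : ℝ} (hc : c ≠ 0) {A B : Set E} {t : Finset E}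
    (h : A ⊆ ⋃ x ∈ t, x +ᵥ B) :
    ∃ t' : Finset E, t'.card = t.card ∧ c • A ⊆ ⋃ x ∈ t', x +ᵥ (c • B) := by
  classical
  refine ⟨t.image (fun x => c • x), Finset.card_image_of_injective _
    (fun a b h => smul_right_injective E hc h), ?_⟩
  intro u hu
  obtain ⟨a, ha, rfl⟩ := Set.mem_smul_set.mp hu
  obtain ⟨x, hx, b, hb, rfl⟩ := exists_of_cover h ha
  simp only [Set.mem_iUnion, exists_prop]
  refine ⟨c • x, Finset.mem_image_of_mem _ hx, c • b, Set.smul_mem_smul_set hb, ?_⟩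
  simp [smul_add]

lemma covNum_smul {c : ℝ} (hc : c ≠ 0) (A B : Set E) : covNum (c • A) (c • B) = covNum A B := by
  unfold covNum
  congr 1
  ext m
  constructor
  · rintro ⟨t, rfl, ht⟩
    obtain ⟨t', h1, h2⟩ := covNum_smul_aux (inv_ne_zero hc) ht
    refine ⟨t', h1, ?_⟩
    rwa [inv_smul_smul₀ hc, inv_smul_smul₀ hc] at h2
  · rintro ⟨t, rfl, ht⟩
    obtain ⟨t', h1, h2⟩ := covNum_smul_aux hc ht
    exact ⟨t', h1, h2⟩

/-- Both inequalities, in the shape of the duality conjecture. -/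
theorem two_sided [FiniteDimensional ℝ E] {K L : Set E} (hK : IsSymBody K) (hL : IsSymBody L)
    (J J' : ℕ) {B : ℝ} (hB : 1 ≤ B) (hJ' : 1024 * B * ((J : ℝ) + 1) ≤ 2 ^ J') :
    (Real.log (covNum K L) ≤ J' * ((J + 11) *
        Real.log (covNum (polarSet L) ((4096 * B * ((J : ℝ) + 1))⁻¹ • polarSet K)) +
      16384 * ((J : ℝ) + 1) ^ 2 * ((2 * B)⁻¹) ^ J *
        (Real.log (covNum (polarSet L) ((4096 * B * ((J : ℝ) + 1))⁻¹ • polarSet K))) ^ 2)) ∧
    (Real.log (covNum (polarSet L) ((4096 * B * ((J : ℝ) + 1)) • polarSet K)) ≤ J' * ((J + 11) *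
        Real.log (covNum K L) +
      16384 * ((J : ℝ) + 1) ^ 2 * ((2 * B)⁻¹) ^ J * (Real.log (covNum K L)) ^ 2)) := by
  refine ⟨main_general hK hL J J' hB hJ', ?_⟩
  have hBpos : 0 < B := by linarith
  have ha : 0 < 4096 * B * ((J : ℝ) + 1) := by positivity
  have h := main_general hL.polar (hK.polar.smul ha) J J' hB hJ'
  rw [polarSet_smul ha, polar_polar hK, polar_polar hL, covNum_smul (inv_ne_zero ha.ne')] at h
  exact h

end Vale.Agent.Lib.P126
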