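import Vale.Agent.Lib.P126.Geom

/-!
Covering and packing facts, the sparse levels lemma, and the telescoping over scales.
-/

namespace Vale.Agent.Lib.P126

open Finset
open scoped Pointwise InnerProductSpace

variable {E : Type*} [NormedAddCommGroup E] [InnerProductSpace ℝ E]

/-- Maximal separated subsets exist when separated subsets have bounded size. -/
lemma exists_maximal_sep {X : Type*} (S : Set X) (R : X → X → Prop) (M : ℕ)
    (hM : ∀ t : Finset X, (∀ x ∈ t, x ∈ S) → (∀ a ∈ t, ∀ b ∈ t, a ≠ b → R a b) → t.card ≤ M) :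
    ∃ P : Finset X, (∀ x ∈ P, x ∈ S) ∧ (∀ a ∈ P, ∀ b ∈ P, a ≠ b → R a b) ∧
      ∀ y ∈ S, y ∈ P ∨ ∃ p ∈ P, ¬ (R y p ∧ R p y) := by
  classical
  suffices h : ∀ k : ℕ, ∀ t : Finset X, (∀ x ∈ t, x ∈ S) →
      (∀ a ∈ t, ∀ b ∈ t, a ≠ b → R a b) → M - t.card ≤ k →
      ∃ P : Finset X, (∀ x ∈ P, x ∈ S) ∧ (∀ a ∈ P, ∀ b ∈ P, a ≠ b → R a b) ∧
        ∀ y ∈ S, y ∈ P ∨ ∃ p ∈ P, ¬ (R y p ∧ R p y) from
    h M ∅ (by simp) (by simp) (by simp)
  intro k
  induction k with
  | zero =>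
    intro t h1 h2 h3
    refine ⟨t, h1, h2, ?_⟩
    by_contra hcon
    push Not at hcon
    obtain ⟨y, hy, hyt, hall⟩ := hcon
    have h4 := hM (insert y t) (by
        intro x hx
        rcases Finset.mem_insert.mp hx with rfl | hx
        · exact hy
        · exact h1 x hx) (by
        intro a ha b hb hab
        rcases Finset.mem_insert.mp ha with rfl | ha' <;>
          rcases Finset.mem_insert.mp hb with rfl | hb'
        · exact absurd rfl hab
        · exact (hall b hb').1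
        · exact (hall a ha').2
        · exact h2 a ha' b hb' hab)
    rw [Finset.card_insert_of_notMem hyt] at h4
    omega
  | succ k ih =>
    intro t h1 h2 h3
    by_cases hstop : ∀ y ∈ S, y ∈ t ∨ ∃ p ∈ t, ¬ (R y p ∧ R p y)
    · exact ⟨t, h1, h2, hstop⟩
    · push Not at hstop
      obtain ⟨y, hy, hyt, hall⟩ := hstop
      refine ih (insert y t) (by
        intro x hx
        rcases Finset.mem_insert.mp hx with rfl | hx
        · exact hy
        · exact h1 x hx) (by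
        intro a ha b hb hab
        rcases Finset.mem_insert.mp ha with rfl | ha' <;>
          rcases Finset.mem_insert.mp hb with rfl | hb'
        · exact absurd rfl hab
        · exact (hall b hb').1
        · exact (hall a ha').2
        · exact h2 a ha' b hb' hab) ?_
      rw [Finset.card_insert_of_notMem hyt]
      omega

lemma IsSymBody.zero_mem {K : Set E} (hK : IsSymBody K) : (0 : E) ∈ K := by
  obtain ⟨x, hx⟩ := hK.interior_nonempty
  have h1 := interior_subset hx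
  have h2 := hK.symm x h1
  have := hK.convex h1 h2 (a := 1 / 2) (b := 1 / 2) (by norm_num) (by norm_num) (by norm_num)
  simpa using this

lemma IsSymBody.exists_ball {K : Set E} (hK : IsSymBody K) : ∃ r > 0, ∀ w : E, ‖w‖ < r → w ∈ K := by
  obtain ⟨x, hx⟩ := hK.interior_nonempty
  obtain ⟨r, hr, hball⟩ := Metric.mem_nhds_iff.mp (mem_interior_iff_mem_nhds.mp hx)
  refine ⟨r, hr, fun w hw => ?_⟩
  have h1 : x + w ∈ K := hball (by simpa using hw)
  have h2 : x - w ∈ K := hball (by simpa [dist_eq_norm] using hw)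
  have h3 := hK.symm _ h2
  have h4 := hK.convex h1 h3 (a := 1 / 2) (b := 1 / 2) (by norm_num) (by norm_num) (by norm_num)
  convert h4 using 1
  module

lemma IsSymBody.half_sub {K : Set E} (hK : IsSymBody K) {a b : E} (ha : a ∈ K) (hb : b ∈ K) :
    (1 / 2 : ℝ) • (a - b) ∈ K := by
  have h3 := hK.symm _ hb
  have h4 := hK.convex ha h3 (a := 1 / 2) (b := 1 / 2) (by norm_num) (by norm_num) (by norm_num)
  convert h4 using 1
  module

lemma IsSymBody.exists_bound {K : Set E} (hK : IsSymBody K) : ∃ M > 0, ∀ x ∈ K, ‖x‖ ≤ M := by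
  obtain ⟨M, hM⟩ := hK.isCompact.isBounded.exists_norm_le
  refine ⟨max M 1, by positivity, fun x hx => (hM x hx).trans (le_max_left _ _)⟩

/-- Finite covers of a compact set by translates of a set containing a ball. -/
lemma exists_finite_cover {A B : Set E} (hA : IsCompact A) {r : ℝ} (hr : 0 < r)
    (hB : ∀ w : E, ‖w‖ < r → w ∈ B) : ∃ t : Finset E, A ⊆ ⋃ x ∈ t, x +ᵥ B := by
  obtain ⟨t, _, htf, hcov⟩ := hA.finite_cover_balls hr
  refine ⟨htf.toFinset, ?_⟩
  intro a ha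
  have := hcov ha
  simp only [Set.mem_iUnion, Metric.mem_ball, exists_prop] at this
  obtain ⟨x, hx, hd⟩ := this
  simp only [Set.mem_iUnion, exists_prop]
  refine ⟨x, htf.mem_toFinset.mpr hx, a - x, hB _ ?_, ?_⟩
  · rwa [← dist_eq_norm]
  · simp

lemma covNum_spec {A B : Set E} (h : ∃ t : Finset E, A ⊆ ⋃ x ∈ t, x +ᵥ B) :
    ∃ t : Finset E, t.card = covNum A B ∧ A ⊆ ⋃ x ∈ t, x +ᵥ B := by
  have hne : {m | ∃ t : Finset E, t.card = m ∧ A ⊆ ⋃ x ∈ t, x +ᵥ B}.Nonempty := by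
    obtain ⟨t, ht⟩ := h
    exact ⟨t.card, t, rfl, ht⟩
  exact Nat.sInf_mem hne

lemma covNum_le {A B : Set E} {t : Finset E} (h : A ⊆ ⋃ x ∈ t, x +ᵥ B) : covNum A B ≤ t.card :=
  Nat.sInf_le ⟨t, rfl, h⟩

/-- Membership in a cover, unfolded. -/
lemma exists_of_cover {A B : Set E} {t : Finset E} (h : A ⊆ ⋃ x ∈ t, x +ᵥ B) {a : E} (ha : a ∈ A) :
    ∃ c ∈ t, ∃ b ∈ B, a = c + b := by
  have := h ha
  simp only [Set.mem_iUnion, exists_prop] at this
  obtain ⟨c, hc, b, hb, rfl⟩ := this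
  exact ⟨c, hc, b, hb, rfl⟩

lemma polarSet_closed (K : Set E) : IsClosed (polarSet K) := by
  have : polarSet K = ⋂ x ∈ K, {y : E | ⟪x, y⟫_ℝ ≤ 1} := by
    ext y
    simp only [polarSet, Set.mem_ofPred_eq, Set.mem_iInter]
  rw [this]
  exact isClosed_biInter (fun x _ => isClosed_le (by fun_prop) continuous_const)

lemma polarSet_compact [FiniteDimensional ℝ E] {L : Set E} (hL : IsSymBody L) :
    IsCompact (polarSet L) := by
  have : ProperSpace E := FiniteDimensional.proper ℝ E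
  obtain ⟨r, hr, hball⟩ := hL.exists_ball
  refine Metric.isCompact_of_isClosed_isBounded (polarSet_closed L) ?_
  refine (Metric.isBounded_iff_subset_closedBall 0).mpr ⟨2 / r, ?_⟩
  intro y hy
  rw [mem_closedBall_zero_iff]
  by_cases hy0 : y = 0
  · rw [hy0, norm_zero]; positivity
  have hypos : 0 < ‖y‖ := norm_pos_iff.mpr hy0
  have hmem : ((r / 2) / ‖y‖) • y ∈ L := by
    apply hball
    rw [norm_smul, Real.norm_of_nonneg (by positivity)]
    field_simp
    linarith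
  have := hy _ hmem
  rw [real_inner_smul_left, real_inner_self_eq_norm_sq] at this
  rw [le_div_iff₀ hr]
  have h2 : (r / 2) / ‖y‖ * ‖y‖ ^ 2 = r / 2 * ‖y‖ := by field_simp
  rw [h2] at this
  linarith

/-- A point of the polar of a bounded set: small vectors lie in the polar. -/
lemma mem_polarSet_of_norm {K : Set E} {M : ℝ} (hM : 0 < M) (hK : ∀ x ∈ K, ‖x‖ ≤ M) {w : E}
    (hw : ‖w‖ ≤ 1 / M) : w ∈ polarSet K := by
  intro x hx
  calc ⟪x, w⟫_ℝ ≤ ‖x‖ * ‖w‖ := real_inner_le_norm x w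
    _ ≤ M * (1 / M) := by
        gcongr
        exact hK x hx
    _ = 1 := by field_simp

/-- The cover of the polar of `L` by translates of a multiple of the polar of `K` exists. -/
lemma exists_polar_cover [FiniteDimensional ℝ E] {K L : Set E} (hK : IsSymBody K)
    (hL : IsSymBody L) {ρ : ℝ} (hρ : 0 < ρ) :
    ∃ t : Finset E, t.card = covNum (polarSet L) (ρ • polarSet K) ∧
      polarSet L ⊆ ⋃ x ∈ t, x +ᵥ (ρ • polarSet K) := by
  apply covNum_spec
  obtain ⟨M, hM, hbd⟩ := hK.exists_bound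
  refine exists_finite_cover (polarSet_compact hL) (r := ρ / M) (by positivity) ?_
  intro w hw
  refine Set.mem_smul_set.mpr ⟨ρ⁻¹ • w, mem_polarSet_of_norm hM hbd ?_, ?_⟩
  · rw [norm_smul, Real.norm_of_nonneg (by positivity)]
    rw [lt_div_iff₀ hM] at hw
    rw [inv_mul_eq_div, div_le_div_iff₀ hρ hM]
    nlinarith
  · rw [smul_smul, mul_inv_cancel₀ hρ.ne', one_smul]

/-- Pairs far apart in the direction of `K` have distinct cells. -/
lemma cell_bound {K T : Set E} (hKs : ∀ x ∈ K, -x ∈ K) {ρ : ℝ} (hρ : 0 < ρ) {F : Finset E}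
    (hF : T ⊆ ⋃ c ∈ F, c +ᵥ (ρ • polarSet K)) {S : Finset E}
    (hS : ∀ u ∈ S, (1 / 2 : ℝ) • u ∈ T)
    (hsep : ∀ u ∈ S, ∀ u' ∈ S, u ≠ u' → ∃ k ∈ K, 4 * ρ < ⟪k, u - u'⟫_ℝ) : S.card ≤ F.card := by
  classical
  have hch : ∀ u ∈ S, ∃ c ∈ F, ∃ b ∈ ρ • polarSet K, (1 / 2 : ℝ) • u = c + b :=
    fun u hu => exists_of_cover hF (hS u hu)
  choose! c hcF hcb using hch
  refine Finset.card_le_card_of_injOn c (fun u hu => hcF u hu) ?_
  intro u hu u' hu' heq
  by_contra hne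
  obtain ⟨k, hk, hgap⟩ := hsep u hu u' hu' hne
  obtain ⟨b, hb, e1⟩ := hcb u hu
  obtain ⟨b', hb', e2⟩ := hcb u' hu'
  obtain ⟨w, hw, rfl⟩ := Set.mem_smul_set.mp hb
  obtain ⟨w', hw', rfl⟩ := Set.mem_smul_set.mp hb'
  have hdiff : u - u' = (2 * ρ) • (w - w') := by
    have h1 : u = (2 : ℝ) • ((1 / 2 : ℝ) • u) := by
      rw [smul_smul]; norm_num
    have h2 : u' = (2 : ℝ) • ((1 / 2 : ℝ) • u') := by
      rw [smul_smul]; norm_num
    rw [h1, h2, e1, e2]
    have : c u' = c u := (heq.symm)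
    rw [this]
    module
  rw [hdiff, real_inner_smul_right, inner_sub_right] at hgap
  have h3 := hw k hk
  have h4 := hw' (-k) (hKs k hk)
  rw [inner_neg_left] at h4
  nlinarith

/-- The level sets. -/
def lev (K L : Set E) (i : ℕ) : Set E := {x | ((2 : ℝ) ^ i / 4) • x ∈ K ∧ (1 / 2 : ℝ) • x ∈ L}

lemma lev_neg {K L : Set E} (hK : ∀ x ∈ K, -x ∈ K) (hL : ∀ x ∈ L, -x ∈ L) {i : ℕ} {x : E}
    (hx : x ∈ lev K L i) : -x ∈ lev K L i := by
  refine ⟨?_, ?_⟩
  · rw [smul_neg]; exact hK _ hx.1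
  · rw [smul_neg]; exact hL _ hx.2

/-- The separation relation at level `i`. -/
def sepAt (K L : Set E) (ε : ℝ) (i : ℕ) (y y' : E) : Prop := ∃ x ∈ lev K L i, ε < ⟪x, y - y'⟫_ℝ

lemma sepAt_symm {K L : Set E} (hK : ∀ x ∈ K, -x ∈ K) (hL : ∀ x ∈ L, -x ∈ L) {ε : ℝ} {i : ℕ}
    {y y' : E} (h : sepAt K L ε i y y') : sepAt K L ε i y' y := by
  obtain ⟨x, hx, h⟩ := h
  refine ⟨-x, lev_neg hK hL hx, ?_⟩
  rw [inner_neg_left, ← inner_neg_right, neg_sub]
  exact h

lemma one_le_two_pow_real (i : ℕ) : (1 : ℝ) ≤ 2 ^ i := one_le_pow₀ (by norm_num)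

/-- Separated sets in the polar of `L` are at most as many as cells. -/
lemma sep_card_le {K L : Set E} (hKs : ∀ x ∈ K, -x ∈ K) {ρ ε : ℝ} (hρ : 0 < ρ) (hρε : 8 * ρ < ε)
    {F : Finset E} (hF : polarSet L ⊆ ⋃ c ∈ F, c +ᵥ (ρ • polarSet K)) {i : ℕ} {t : Finset E}
    (ht : ∀ x ∈ t, x ∈ polarSet L) (hsep : ∀ a ∈ t, ∀ b ∈ t, a ≠ b → sepAt K L ε i a b) :
    t.card ≤ F.card := by
  classical
  have h2 : (2 : ℝ) ≠ 0 := by norm_num
  let S : Finset E := t.image (fun y => (2 : ℝ) • y)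
  have hcard : S.card = t.card :=
    Finset.card_image_of_injective _ (fun a b h => smul_right_injective E h2 h)
  rw [← hcard]
  refine cell_bound hKs hρ hF ?_ ?_
  · intro u hu
    obtain ⟨y, hy, rfl⟩ := Finset.mem_image.mp hu
    rw [smul_smul]
    norm_num
    exact ht y hy
  · intro u hu u' hu' hne
    obtain ⟨y, hy, rfl⟩ := Finset.mem_image.mp hu
    obtain ⟨y', hy', rfl⟩ := Finset.mem_image.mp hu'
    have hyne : y ≠ y' := fun h => hne (by rw [h])
    obtain ⟨x, hx, hgap⟩ := hsep y hy y' hy' hyne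
    refine ⟨_, hx.1, ?_⟩
    rw [← smul_sub, real_inner_smul_right, real_inner_smul_left]
    have h1 := one_le_two_pow_real i
    have hεpos : 0 < ε := by linarith
    have h3 : (1 : ℝ) / 4 * ε ≤ (2 : ℝ) ^ i / 4 * ε := by
      apply mul_le_mul_of_nonneg_right _ hεpos.le
      linarith
    have h4 : (2 : ℝ) ^ i / 4 * ε ≤ (2 : ℝ) ^ i / 4 * ⟪x, y - y'⟫_ℝ :=
      mul_le_mul_of_nonneg_left hgap.le (by positivity)
    nlinarith

/-- Nets at each level exist. -/
lemma exists_level_net {K L : Set E} (hKs : ∀ x ∈ K, -x ∈ K) (hLs : ∀ x ∈ L, -x ∈ L) {ρ ε : ℝ}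
    (hρ : 0 < ρ) (hρε : 8 * ρ < ε) {F : Finset E}
    (hF : polarSet L ⊆ ⋃ c ∈ F, c +ᵥ (ρ • polarSet K)) (i : ℕ) :
    ∃ P : Finset E, (∀ p ∈ P, p ∈ polarSet L) ∧ (∀ a ∈ P, ∀ b ∈ P, a ≠ b → sepAt K L ε i a b) ∧
      ∀ y ∈ polarSet L, ∃ p ∈ P, ∀ x ∈ lev K L i, |⟪x, y - p⟫_ℝ| ≤ ε := by
  obtain ⟨P, h1, h2, h3⟩ := exists_maximal_sep (polarSet L) (sepAt K L ε i) F.card
    (fun t ht hs => sep_card_le hKs hρ hρε hF ht hs)
  refine ⟨P, h1, h2, fun y hy => ?_⟩
  have hεpos : 0 < ε := by linarith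
  rcases h3 y hy with hP | ⟨p, hp, hn⟩
  · refine ⟨y, hP, fun x _ => ?_⟩
    simp [hεpos.le]
  · refine ⟨p, hp, fun x hx => ?_⟩
    have hns : ¬ sepAt K L ε i y p := by
      intro h
      exact hn ⟨h, sepAt_symm hKs hLs h⟩
    have e1 : ⟪x, y - p⟫_ℝ ≤ ε := by
      by_contra hc
      push Not at hc
      exact hns ⟨x, hx, hc⟩
    have e2 : ⟪-x, y - p⟫_ℝ ≤ ε := by
      by_contra hc
      push Not at hc
      exact hns ⟨-x, lev_neg hKs hLs hx, hc⟩
    rw [inner_neg_left] at e2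
    exact abs_le.mpr ⟨by linarith, e1⟩

/-- The bound of a level point against twice the polar. -/
lemma abs_inner_lev_le {K L : Set E} (hLs : ∀ x ∈ L, -x ∈ L) {i : ℕ} {x v : E}
    (hx : x ∈ lev K L i) (hv : (1 / 2 : ℝ) • v ∈ polarSet L) : |⟪x, v⟫_ℝ| ≤ 4 := by
  have h := abs_inner_le_of_polar hLs hv hx.2
  rw [real_inner_smul_left, real_inner_smul_right, real_inner_comm] at h
  have e : (1 / 2 : ℝ) * ((1 / 2 : ℝ) * ⟪x, v⟫_ℝ) = (1 / 4) * ⟪x, v⟫_ℝ := by ring
  rw [e, abs_mul, abs_of_pos (by norm_num : (0 : ℝ) < 1 / 4)] at h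
  linarith

/-- The sparse levels lemma: products of sizes of nets at sparse levels embed in one separated
set. -/
lemma sparse_levels {K L : Set E} (hLs : ∀ x ∈ L, -x ∈ L) {ε η : ℝ} (hε : 0 < ε)
    (hη : η = ε / 16) (hη2 : 2 * η ≤ 1) {J' : ℕ} (hJ' : 1 ≤ (2 : ℝ) ^ J' * η) {P : ℕ → Finset E}
    (hP : ∀ i, ∀ p ∈ P i, p ∈ polarSet L)
    (hsep : ∀ i, ∀ a ∈ P i, ∀ b ∈ P i, a ≠ b → sepAt K L ε i a b) :
    ∀ (m i : ℕ), ∃ S : Finset E, (∀ u ∈ S, (1 / 2 : ℝ) • u ∈ polarSet L) ∧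
      S.card = ∏ j ∈ Finset.range m, (P (i + j * J')).card ∧
      ∀ u ∈ S, ∀ u' ∈ S, u ≠ u' → ∃ k ∈ K, (2 : ℝ) ^ i / 8 * ε ≤ ⟪k, u - u'⟫_ℝ := by
  classical
  have hηpos : 0 < η := by rw [hη]; positivity
  intro m
  induction m with
  | zero =>
    intro i
    refine ⟨{0}, ?_, by simp, ?_⟩
    · intro u hu
      rw [Finset.mem_singleton.mp hu]
      simpa using polarSet_zero L
    · intro u hu u' hu' hne
      rw [Finset.mem_singleton.mp hu, Finset.mem_singleton.mp hu'] at hne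
      exact absurd rfl hne
  | succ m ih =>
    intro i
    obtain ⟨S', hS'1, hS'2, hS'3⟩ := ih (i + J')
    -- the key separation for pairs
    have hkey : ∀ y ∈ P i, ∀ v ∈ S', ∀ y' ∈ P i, ∀ v' ∈ S', (y, v) ≠ (y', v') →
        ∃ k ∈ K, (2 : ℝ) ^ i / 8 * ε ≤ ⟪k, (y + η • v) - (y' + η • v')⟫_ℝ := by
      intro y hy v hv y' hy' v' hv' hne
      by_cases hyy : y = y'
      · subst hyy
        have hvv : v ≠ v' := fun h => hne (by rw [h])
        obtain ⟨k, hk, hgap⟩ := hS'3 v hv v' hv' hvv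
        refine ⟨k, hk, ?_⟩
        have e : y + η • v - (y + η • v') = η • (v - v') := by module
        rw [e, real_inner_smul_right]
        have e2 : (2 : ℝ) ^ (i + J') / 8 * ε = (2 : ℝ) ^ J' * ((2 : ℝ) ^ i / 8 * ε) := by
          rw [pow_add]; ring
        rw [e2] at hgap
        have hq : 0 < (2 : ℝ) ^ i / 8 * ε := by positivity
        have h3 : η * ((2 : ℝ) ^ J' * ((2 : ℝ) ^ i / 8 * ε)) ≤ η * ⟪k, v - v'⟫_ℝ :=
          mul_le_mul_of_nonneg_left hgap hηpos.le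
        have h4 : (2 : ℝ) ^ i / 8 * ε ≤ η * ((2 : ℝ) ^ J' * ((2 : ℝ) ^ i / 8 * ε)) := by
          have : η * ((2 : ℝ) ^ J' * ((2 : ℝ) ^ i / 8 * ε)) =
              ((2 : ℝ) ^ J' * η) * ((2 : ℝ) ^ i / 8 * ε) := by ring
          rw [this]
          nlinarith
        linarith
      · obtain ⟨x, hx, hgap⟩ := hsep i y hy y' hy' hyy
        refine ⟨_, hx.1, ?_⟩
        rw [real_inner_smul_left]
        have e : y + η • v - (y' + η • v') = (y - y') + η • (v - v') := by module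
        rw [e, inner_add_right, real_inner_smul_right, inner_sub_right (𝕜 := ℝ) x v v']
        have h5 := abs_le.mp (abs_inner_lev_le hLs hx (hS'1 v hv))
        have h6 := abs_le.mp (abs_inner_lev_le hLs hx (hS'1 v' hv'))
        have h7 : η * (⟪x, v⟫_ℝ - ⟪x, v'⟫_ℝ) ≥ -(8 * η) := by nlinarith [h5.1, h6.2]
        have h8 : ε / 2 ≤ ⟪x, y - y'⟫_ℝ + η * (⟪x, v⟫_ℝ - ⟪x, v'⟫_ℝ) := by
          rw [hη] at h7 ⊢
          linarith
        have h9 : (2 : ℝ) ^ i / 4 * (ε / 2) ≤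
            (2 : ℝ) ^ i / 4 * (⟪x, y - y'⟫_ℝ + η * (⟪x, v⟫_ℝ - ⟪x, v'⟫_ℝ)) :=
          mul_le_mul_of_nonneg_left h8 (by positivity)
        have h10 : (2 : ℝ) ^ i / 4 * (ε / 2) = (2 : ℝ) ^ i / 8 * ε := by ring
        linarith
    let S : Finset E := (P i ×ˢ S').image (fun p => p.1 + η • p.2)
    have hinj : Set.InjOn (fun p : E × E => p.1 + η • p.2) (P i ×ˢ S' : Finset (E × E)) := by
      rintro ⟨y, v⟩ hp ⟨y', v'⟩ hp' heq
      by_contra hne
      have hp1 := Finset.mem_product.mp hp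
      have hp2 := Finset.mem_product.mp hp'
      obtain ⟨k, _, hk⟩ := hkey y hp1.1 v hp1.2 y' hp2.1 v' hp2.2 hne
      simp only at heq
      rw [heq, sub_self, inner_zero_right] at hk
      have : 0 < (2 : ℝ) ^ i / 8 * ε := by positivity
      linarith
    refine ⟨S, ?_, ?_, ?_⟩
    · intro u hu
      obtain ⟨⟨y, v⟩, hp, rfl⟩ := Finset.mem_image.mp hu
      obtain ⟨hy, hv⟩ := Finset.mem_product.mp hp
      have h1 : η • v ∈ polarSet L := by
        have h2 : η • v = (2 * η) • ((1 / 2 : ℝ) • v) + (1 - 2 * η) • (0 : E) := by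
          rw [smul_smul, smul_zero, add_zero]
          congr 1
          ring
        rw [h2]
        exact polarSet_convex L (hS'1 v hv) (polarSet_zero L) (by positivity) (by linarith) (by ring)
      have h3 := polarSet_convex L (hP i y hy) h1 (a := 1 / 2) (b := 1 / 2)
        (by norm_num) (by norm_num) (by norm_num)
      convert h3 using 1
      simp only [smul_add]
    · rw [Finset.card_image_of_injOn hinj, Finset.card_product, hS'2,
        Finset.prod_range_succ']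
      simp only [zero_mul, add_zero]
      rw [mul_comm]
      congr 1
      refine Finset.prod_congr rfl (fun j _ => ?_)
      congr 2
      ring
    · intro u hu u' hu' hne
      obtain ⟨⟨y, v⟩, hp, rfl⟩ := Finset.mem_image.mp hu
      obtain ⟨⟨y', v'⟩, hp', rfl⟩ := Finset.mem_image.mp hu'
      have hp1 := Finset.mem_product.mp hp
      have hp2 := Finset.mem_product.mp hp'
      refine hkey y hp1.1 v hp1.2 y' hp2.1 v' hp2.2 ?_
      intro h
      exact hne (by rw [h])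

/-- Sums over all indices are controlled by the sums along arithmetic progressions. -/
lemma sum_le_of_residues {a : ℕ → ℝ} (ha : ∀ i, 0 ≤ a i) {J' : ℕ} (hJ' : 1 ≤ J') {W : ℝ}
    (h : ∀ r m : ℕ, ∑ j ∈ Finset.range m, a (r + j * J') ≤ W) (I : ℕ) :
    ∑ i ∈ Finset.range I, a i ≤ J' * W := by
  have hsplit : ∀ M : ℕ, ∑ i ∈ Finset.range (J' * M), a i =
      ∑ r ∈ Finset.range J', ∑ j ∈ Finset.range M, a (r + j * J') := by
    intro M
    induction M with
    | zero => simp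
    | succ M ih =>
      rw [Nat.mul_succ, Finset.sum_range_add, ih, ← Finset.sum_add_distrib]
      refine Finset.sum_congr rfl (fun r _ => ?_)
      rw [Finset.sum_range_succ]
      congr 2
      ring
  have h1 : ∑ i ∈ Finset.range I, a i ≤ ∑ i ∈ Finset.range (J' * I), a i := by
    apply Finset.sum_le_sum_of_subset_of_nonneg
    · intro x hx
      rw [Finset.mem_range] at hx ⊢
      have : I ≤ J' * I := Nat.le_mul_of_pos_left I (by omega)
      omega
    · intro i _ _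
      exact ha i
  refine h1.trans ?_
  rw [hsplit]
  calc ∑ r ∈ Finset.range J', ∑ j ∈ Finset.range I, a (r + j * J')
      ≤ ∑ _r ∈ Finset.range J', W := Finset.sum_le_sum (fun r _ => h r I)
    _ = J' * W := by simp

end Vale.Agent.Lib.P126
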