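import Vale.Agent.Lib.P126.Levels

/-!
The single scale bound with a small power loss at a net scale proportional to the inverse
of the number of levels.
-/

namespace Vale.Agent.Lib.P126

open Finset
open scoped Pointwise InnerProductSpace

section KLset

variable {ι : Type*} [Fintype ι]

lemma kl_eq_sum {μ π : ι → ℝ} (hπ : IsPosProb π) :
    kl μ π = ∑ i, (μ i * Real.log (μ i) - μ i * Real.log (π i)) := by
  unfold kl
  refine Finset.sum_congr rfl (fun i _ => ?_)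
  by_cases h : μ i = 0
  · simp [h]
  · rw [Real.log_div h (hπ.1 i).ne']
    ring

lemma continuous_kl {π : ι → ℝ} (hπ : IsPosProb π) : Continuous (fun μ : ι → ℝ => kl μ π) := by
  have : (fun μ : ι → ℝ => kl μ π) =
      fun μ => ∑ i, (μ i * Real.log (μ i) - μ i * Real.log (π i)) := by
    funext μ
    exact kl_eq_sum hπ
  rw [this]
  refine continuous_finsetSum _ (fun i _ => ?_)
  exact (Real.continuous_mul_log.comp (continuous_apply i)).sub
    ((continuous_apply i).mul continuous_const)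

/-- The relative entropy ball. -/
def klSet (π : ι → ℝ) (β : ℝ) : Set (ι → ℝ) := {μ | IsProb μ ∧ kl μ π ≤ β}

lemma IsProb.le_one {μ : ι → ℝ} (hμ : IsProb μ) (i : ι) : μ i ≤ 1 := by
  calc μ i ≤ ∑ j, μ j := Finset.single_le_sum (f := μ) (fun j _ => hμ.1 j) (Finset.mem_univ i)
    _ = 1 := hμ.2

lemma klSet_compact {π : ι → ℝ} (hπ : IsPosProb π) (β : ℝ) : IsCompact (klSet π β) := by
  have he : klSet π β = densSet ι 1 ∩ {μ | kl μ π ≤ β} := by
    ext μ
    constructor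
    · rintro ⟨h1, h2⟩
      exact ⟨⟨h1, fun i => h1.le_one i⟩, h2⟩
    · rintro ⟨⟨h1, _⟩, h2⟩
      exact ⟨h1, h2⟩
  rw [he]
  exact (densSet_compact 1).inter_right (isClosed_le (continuous_kl hπ) continuous_const)

lemma klSet_convex {π : ι → ℝ} (hπ : IsPosProb π) (β : ℝ) : Convex ℝ (klSet π β) := by
  intro μ hμ ν hν a b ha hb hab
  have hprob : IsProb (a • μ + b • ν) := by
    refine ⟨fun i => ?_, ?_⟩
    · have := hμ.1.1 i
      have := hν.1.1 i
      simp only [Pi.add_apply, Pi.smul_apply, smul_eq_mul]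
      positivity
    · simp only [Pi.add_apply, Pi.smul_apply, smul_eq_mul]
      rw [Finset.sum_add_distrib, ← Finset.mul_sum, ← Finset.mul_sum, hμ.1.2, hν.1.2]
      linarith
  refine ⟨hprob, ?_⟩
  have hkey : kl (a • μ + b • ν) π ≤ a * kl μ π + b * kl ν π := by
    rw [kl_eq_sum hπ, kl_eq_sum hπ, kl_eq_sum hπ, Finset.mul_sum, Finset.mul_sum,
      ← Finset.sum_add_distrib]
    refine Finset.sum_le_sum (fun i _ => ?_)
    have h1 := Real.convexOn_mul_log.2 (x := μ i) (y := ν i) (Set.mem_Ici.mpr (hμ.1.1 i))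
      (Set.mem_Ici.mpr (hν.1.1 i)) ha hb hab
    simp only [smul_eq_mul] at h1
    simp only [Pi.add_apply, Pi.smul_apply, smul_eq_mul]
    nlinarith
  have h2 := hμ.2
  have h3 := hν.2
  calc kl (a • μ + b • ν) π ≤ a * kl μ π + b * kl ν π := hkey
    _ ≤ a * β + b * β := by gcongr
    _ = β := by rw [← add_mul, hab, one_mul]

end KLset

section Geom

variable {E : Type*} [NormedAddCommGroup E] [InnerProductSpace ℝ E]
variable {ι : Type*} [Fintype ι]

/-- The dichotomy: minimax for relative entropy balls against the polar of `L`. -/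
lemma dichotomyKL [FiniteDimensional ℝ E] {L : Set E} (hLc : IsCompact L) (hLconv : Convex ℝ L)
    (hLs : ∀ x ∈ L, -x ∈ L) (hLne : L.Nonempty) (z : ι → E) {π : ι → ℝ} (hπ : IsPosProb π)
    (x : ι) {v β : ℝ} (hv : 0 < v) :
    (∃ μ, IsProb μ ∧ kl μ π ≤ β ∧ ∀ y ∈ polarSet L, avg μ (fam z y) - fam z y x ≤ v) ∨
    (∃ y ∈ polarSet L, ∀ μ, IsProb μ → kl μ π ≤ β → avg μ (fam z y) < fam z y x - v) := by
  let D : Set E := meanPt z '' klSet π β
  have hcont : Continuous (meanPt z) := by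
    unfold meanPt
    exact continuous_finsetSum _ (fun i _ => (continuous_apply i).smul continuous_const)
  have hDc : IsCompact D := (klSet_compact hπ β).image hcont
  have hDconv : Convex ℝ D := by
    intro d hd d' hd' a b ha hb hab
    obtain ⟨μ, hμ, rfl⟩ := hd
    obtain ⟨ν, hν, rfl⟩ := hd'
    refine ⟨a • μ + b • ν, klSet_convex hπ β hμ hν ha hb hab, ?_⟩
    unfold meanPt
    rw [Finset.smul_sum, Finset.smul_sum, ← Finset.sum_add_distrib]
    refine Finset.sum_congr rfl (fun i _ => ?_)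
    simp only [Pi.add_apply, Pi.smul_apply, smul_eq_mul, add_smul, mul_smul]
  by_cases hex : ∃ d ∈ D, ∃ l ∈ L, d = z x + v • l
  · left
    obtain ⟨d, ⟨μ, hμ, rfl⟩, l, hl, hd⟩ := hex
    refine ⟨μ, hμ.1, hμ.2, fun y hy => ?_⟩
    rw [avg_fam, hd, inner_add_right, inner_smul_right]
    have h1 := abs_inner_le_of_polar hLs hy hl
    have h2 := (abs_le.mp h1).2
    simp only [fam]
    nlinarith
  · right
    push Not at hex
    obtain ⟨y, hy, h⟩ := exists_polar_sep hLc hLconv hLs hLne hDc hDconv (z x) hv hex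
    refine ⟨y, hy, fun μ hμ hμc => ?_⟩
    have := h (meanPt z μ) ⟨μ, ⟨hμ, hμc⟩, rfl⟩
    rw [inner_sub_right] at this
    rw [avg_fam]
    simp only [fam]
    linarith

end Geom

section Abstract

variable {ι : Type*} [Fintype ι]

open Classical in
/-- The count behind the bound with small power loss. -/
lemma abstract_power_count {F : Set (ι → ℝ)} (hF : FamilyData F 2) (hD : KLDich F)
    {Q : Finset (ι → ℝ)} {ε : ℝ} (hε : 0 < ε) (hε32 : ε ≤ 1 / 32)
    (hQ : ∀ f ∈ F, ∃ q ∈ Q, ∀ i, |f i - q i| ≤ ε)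
    (hsep : ∀ i j : ι, i ≠ j → ∃ f ∈ F, 1 < f i - f j)
    (hdich : ∀ x : ι, (∃ μ, IsProb μ ∧ (∀ i, μ i ≤ (2 * Q.card : ℝ) / Fintype.card ι) ∧
        ∀ f ∈ F, avg μ f - f x ≤ 1 / 8) ∨
      (∃ f ∈ F, ∀ μ, IsProb μ → (∀ i, μ i ≤ (2 * Q.card : ℝ) / Fintype.card ι) →
        avg μ f < f x - 1 / 8))
    (s r G : ℕ) (hr : 1 ≤ r) (hs : 2 * ε * s ≤ 1 / 8)
    (hb : Real.log (2 * Q.card) ≤ (1 / 256 : ℝ) * r ^ s)
    (hG : (1 / 256 : ℝ) * r ^ s / (2 * ε) / (1 / 1024) < 2 ^ G) :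
    Fintype.card ι ≤ 2 * ((G * Q.card + 1) ^ (2 * r)) ^ s := by
  by_cases hne : Nonempty ι
  swap
  · rw [not_nonempty_iff] at hne
    simp
  obtain ⟨A₀, hA₀card, hA₀⟩ := good_large hF (δ := 1 / 8) (ε := ε) (by norm_num)
    (by linarith) hQ hdich
  have hch : ∀ x ∈ A₀, ∃ μ, IsProb μ ∧
      kl μ (fun _ : ι => ((Fintype.card ι : ℝ))⁻¹) ≤ (1 / 256 : ℝ) * r ^ s ∧
      ∀ f ∈ F, avg μ f - f x ≤ 1 / 8 := by
    intro x hx
    obtain ⟨μ, h1, h2, h3⟩ := hA₀ x hx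
    exact ⟨μ, h1, (kl_unif_le h1 h2).trans hb, h3⟩
  choose! m hm using hch
  have hcount := level_count hF hD hε hQ hsep s r G hr hG s le_rfl (1 / 8) (by norm_num)
    (by linarith) (fun _ : ι => ((Fintype.card ι : ℝ))⁻¹) A₀ m isPosProb_unif hm
  exact hA₀card.trans (Nat.mul_le_mul_left _ hcount)

end Abstract

/-- The multiplier of the bound at one scale. -/
noncomputable def powMult (s : ℕ) (a : ℝ) : ℝ :=
  10 * s * (1 + Real.log (20 * s)) * (512 * a) ^ ((s : ℝ)⁻¹)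

lemma powMult_nonneg {s : ℕ} (hs : 1 ≤ s) {a : ℝ} (ha : 0 ≤ a) : 0 ≤ powMult s a := by
  have hsR : (1 : ℝ) ≤ s := by exact_mod_cast hs
  have hlog : 0 ≤ Real.log (20 * (s : ℝ)) := Real.log_nonneg (by linarith)
  unfold powMult
  have := Real.rpow_nonneg (by positivity : (0 : ℝ) ≤ 512 * a) ((s : ℝ)⁻¹)
  positivity

lemma powMult_mono {s : ℕ} (hs : 1 ≤ s) {a b : ℝ} (ha : 0 ≤ a) (hab : a ≤ b) :
    powMult s a ≤ powMult s b := by
  have hsR : (1 : ℝ) ≤ s := by exact_mod_cast hs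
  have hlog : 0 ≤ Real.log (20 * (s : ℝ)) := Real.log_nonneg (by linarith)
  unfold powMult
  have : (512 * a) ^ ((s : ℝ)⁻¹) ≤ (512 * b) ^ ((s : ℝ)⁻¹) :=
    Real.rpow_le_rpow (by positivity) (by linarith) (by positivity)
  gcongr

/-- The last chain of inequalities. -/
lemma power_end {a κ S r x X c : ℝ} (ha : Real.log 2 ≤ a) (hκ : 1 ≤ κ) (hS : 1 ≤ S) (hr : 1 ≤ r)
    (hx : r ≤ 2 * x) (hX : X ≤ 2 * κ * a) (hc : c ≤ Real.log 2 + S * (2 * r * X)) :
    c ≤ 10 * S * κ * x * a := by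
  have ha0 : 0 ≤ a := by
    have : (0 : ℝ) < Real.log 2 := Real.log_pos (by norm_num)
    linarith
  have h1 : S * (2 * r * X) ≤ S * (2 * r * (2 * κ * a)) := by gcongr
  have h2 : 1 ≤ S * r * κ := by
    have h5 : 1 ≤ S * r := by nlinarith
    nlinarith
  have h3 : a ≤ S * r * κ * a := by nlinarith
  have h4 : S * r * κ * a ≤ S * (2 * x) * κ * a := by gcongr
  nlinarith

/-- The logarithm of the alphabet. -/
lemma log_alphabet {G q p S a : ℝ} (ha0 : 0 < a) (hlog : Real.log p = a) (h2a : 1 ≤ 2 * a)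
    (hS : 1 ≤ S) (hG : G ≤ 17 + 2 * S + a) (hG1 : 1 ≤ G) (hq1 : 1 ≤ q) (hqp : q ≤ p) :
    Real.log (G * q + 1) ≤ 2 * (1 + Real.log (20 * S)) * a := by
  have hp1 : 1 ≤ p := hq1.trans hqp
  have hGq : 0 < G * q + 1 := by positivity
  have h2 : G * q + 1 ≤ (G + 1) * p := by nlinarith
  have h3 : G + 1 ≤ (20 * S) * (1 + a) := by nlinarith
  have hlogs : 0 ≤ Real.log (20 * S) := Real.log_nonneg (by linarith)
  have h5 : G * q + 1 ≤ (20 * S) * (1 + a) * p :=
    h2.trans (mul_le_mul_of_nonneg_right h3 (by linarith))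
  have h6 := Real.log_le_log hGq h5
  rw [Real.log_mul (by positivity) (by positivity),
    Real.log_mul (by positivity) (by positivity), hlog] at h6
  have h7 : Real.log (1 + a) ≤ a := by
    have := Real.log_le_sub_one_of_pos (by linarith : 0 < 1 + a)
    linarith
  have h8 : Real.log (20 * S) ≤ 2 * Real.log (20 * S) * a := by nlinarith
  nlinarith

/-- The numerical end: choice of `r` and `G`. -/
lemma power_numeric {s : ℕ} (hs : 1 ≤ s) {c q p : ℕ} {a : ℝ} (ha : a = Real.log p) (hq : q ≤ p)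
    (hp : 2 ≤ p) (hq0 : 1 ≤ q) :
    ∃ r G : ℕ, 1 ≤ r ∧ Real.log (2 * q) ≤ (1 / 256 : ℝ) * r ^ s ∧
      (1 / 256 : ℝ) * r ^ s / (2 * (1 / (64 * (s : ℝ)))) / (1 / 1024) < 2 ^ G ∧
      (c ≤ 2 * ((G * q + 1) ^ (2 * r)) ^ s → c ≠ 0 → Real.log c ≤ powMult s a * a) := by
  have hsR : (1 : ℝ) ≤ s := by exact_mod_cast hs
  have hsne : (s : ℝ) ≠ 0 := by positivity
  have hpR : (2 : ℝ) ≤ p := by exact_mod_cast hp
  have hqR : (1 : ℝ) ≤ q := by exact_mod_cast hq0
  have hqpR : (q : ℝ) ≤ p := by exact_mod_cast hq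
  have hlog2 : Real.log 2 ≤ a := by rw [ha]; exact Real.log_le_log (by norm_num) hpR
  have hlog2pos : (0.69 : ℝ) < Real.log 2 := by
    have := Real.log_two_gt_d9; norm_num at this ⊢; linarith
  have ha0 : 0 < a := by linarith
  -- the root
  obtain ⟨x, hx⟩ : ∃ x : ℝ, x = (512 * a) ^ ((s : ℝ)⁻¹) := ⟨_, rfl⟩
  have h512 : (1 : ℝ) ≤ 512 * a := by nlinarith
  have hx1 : 1 ≤ x := by
    rw [hx]
    exact Real.one_le_rpow h512 (by positivity)
  have hxs : x ^ s = 512 * a := by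
    rw [hx, ← Real.rpow_natCast, ← Real.rpow_mul (by positivity), inv_mul_cancel₀ hsne,
      Real.rpow_one]
  obtain ⟨r, hr⟩ : ∃ r : ℕ, r = ⌈x⌉₊ := ⟨_, rfl⟩
  have hr1 : 1 ≤ r := by
    rw [hr]
    exact Nat.one_le_ceil_iff.mpr (by linarith)
  have hrx : x ≤ r := by rw [hr]; exact Nat.le_ceil x
  have hrx2 : (r : ℝ) ≤ 2 * x := by
    have := Nat.ceil_lt_add_one (by linarith : 0 ≤ x)
    rw [← hr] at this
    linarith
  have hrs1 : 512 * a ≤ (r : ℝ) ^ s := by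
    rw [← hxs]
    exact pow_le_pow_left₀ (by linarith) hrx s
  have hrs2 : (r : ℝ) ^ s ≤ 2 ^ s * (512 * a) := by
    rw [← hxs, ← mul_pow]
    exact pow_le_pow_left₀ (by positivity) hrx2 s
  -- the grid
  obtain ⟨G, hG⟩ : ∃ G : ℕ, G = 16 + 2 * s + ⌈a⌉₊ := ⟨_, rfl⟩
  have hGle : (G : ℝ) ≤ 17 + 2 * s + a := by
    have := Nat.ceil_lt_add_one ha0.le
    rw [hG]
    push_cast
    linarith
  have hG1 : (1 : ℝ) ≤ G := by
    rw [hG]; push_cast
    have : (0 : ℝ) ≤ ⌈a⌉₊ := by positivity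
    linarith
  refine ⟨r, G, hr1, ?_, ?_, ?_⟩
  · have h1 : Real.log (2 * q) = Real.log 2 + Real.log q :=
      Real.log_mul (by norm_num) (by positivity)
    have h2 : Real.log q ≤ a := by rw [ha]; exact Real.log_le_log (by positivity) hqpR
    rw [h1]
    nlinarith
  · have h1 : (1 / 256 : ℝ) * r ^ s / (2 * (1 / (64 * (s : ℝ)))) / (1 / 1024) =
        128 * s * (r : ℝ) ^ s := by
      field_simp
      ring
    rw [h1]
    have h2 : (s : ℝ) < 2 ^ s := by exact_mod_cast Nat.lt_two_pow_self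
    have h3 : a < 2 ^ ⌈a⌉₊ := by
      have h4 : a ≤ ⌈a⌉₊ := Nat.le_ceil a
      have h5 : ((⌈a⌉₊ : ℕ) : ℝ) < 2 ^ ⌈a⌉₊ := by exact_mod_cast Nat.lt_two_pow_self
      linarith
    have h6 : (2 : ℝ) ^ G = 2 ^ 16 * 2 ^ s * 2 ^ s * 2 ^ ⌈a⌉₊ := by
      rw [hG]
      ring
    rw [h6]
    have h7 : 128 * (s : ℝ) * (r : ℝ) ^ s ≤ 128 * s * (2 ^ s * (512 * a)) := by gcongr
    have h8 : (s : ℝ) * a < 2 ^ s * 2 ^ ⌈a⌉₊ :=
      mul_lt_mul'' h2 h3 (by positivity) ha0.le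
    calc 128 * (s : ℝ) * (r : ℝ) ^ s ≤ 128 * s * (2 ^ s * (512 * a)) := h7
      _ = 2 ^ 16 * 2 ^ s * (s * a) := by ring
      _ < 2 ^ 16 * 2 ^ s * (2 ^ s * 2 ^ ⌈a⌉₊) := by
          exact mul_lt_mul_of_pos_left h8 (by positivity)
      _ = _ := by ring
  · intro hc hc0
    have hcR : (c : ℝ) ≤ 2 * (((G : ℝ) * q + 1) ^ (2 * r)) ^ s := by exact_mod_cast hc
    have hc0R : (0 : ℝ) < c := by exact_mod_cast Nat.pos_of_ne_zero hc0
    have hGq : (0 : ℝ) < (G : ℝ) * q + 1 := by positivity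
    have h1 := Real.log_le_log hc0R hcR
    rw [Real.log_mul (by norm_num) (by positivity), Real.log_pow, Real.log_pow] at h1
    have hX : Real.log ((G : ℝ) * q + 1) ≤ 2 * (1 + Real.log (20 * s)) * a :=
      log_alphabet ha0 ha.symm (by linarith) hsR hGle hG1 hqR hqpR
    have hrR : (1 : ℝ) ≤ r := by exact_mod_cast hr1
    have hlogs : 0 ≤ Real.log (20 * (s : ℝ)) := Real.log_nonneg (by linarith)
    have hm : powMult s a = 10 * s * (1 + Real.log (20 * s)) * x := by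
      unfold powMult
      rw [← hx]
    rw [hm]
    push_cast at h1
    exact power_end hlog2 (by linarith) hsR hrR hrx2 hX (by linarith)

section Geom2

variable {E : Type*} [NormedAddCommGroup E] [InnerProductSpace ℝ E]
variable {ι : Type*} [Fintype ι]

/-- The single scale bound with small power loss. -/
theorem single_scale_power [FiniteDimensional ℝ E] {L : Set E} (hLc : IsCompact L)
    (hLconv : Convex ℝ L) (hLs : ∀ x ∈ L, -x ∈ L) (hLne : L.Nonempty) (z : ι → E)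
    (hz : ∀ y ∈ polarSet L, ∀ i, |⟪y, z i⟫_ℝ| ≤ 2)
    (hsep : ∀ i j : ι, i ≠ j → z i - z j ∉ L) {s : ℕ} (hs : 1 ≤ s)
    {P : Finset E} (hP : ∀ p ∈ P, p ∈ polarSet L)
    (hnet : ∀ y ∈ polarSet L, ∃ p ∈ P, ∀ i, |⟪y, z i⟫_ℝ - ⟪p, z i⟫_ℝ| ≤ 1 / (64 * (s : ℝ))) :
    Real.log (Fintype.card ι) ≤ powMult s (Real.log P.card) * Real.log P.card := by
  classical
  have hsR : (1 : ℝ) ≤ s := by exact_mod_cast hs
  let F : Set (ι → ℝ) := fam z '' polarSet L
  have hF : FamilyData F 2 := familyData_fam hLs z hz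
  let Q : Finset (ι → ℝ) := P.image (fam z)
  have hQF : ∀ q ∈ Q, q ∈ F := by
    intro q hq
    obtain ⟨p, hp, rfl⟩ := Finset.mem_image.mp hq
    exact ⟨p, hP p hp, rfl⟩
  have hQ : ∀ f ∈ F, ∃ q ∈ Q, ∀ i, |f i - q i| ≤ 1 / (64 * (s : ℝ)) := by
    rintro _ ⟨y, hy, rfl⟩
    obtain ⟨p, hp, h⟩ := hnet y hy
    exact ⟨fam z p, Finset.mem_image_of_mem _ hp, h⟩
  have hsep' : ∀ i j : ι, i ≠ j → ∃ f ∈ F, 1 < f i - f j := by
    intro i j hij
    obtain ⟨y, hy, h⟩ := exists_polar_of_notMem hLc hLconv hLs hLne (hsep i j hij)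
    refine ⟨fam z y, ⟨y, hy, rfl⟩, ?_⟩
    rw [inner_sub_right] at h
    exact h
  have hdich : ∀ x : ι, (∃ μ, IsProb μ ∧ (∀ i, μ i ≤ (2 * Q.card : ℝ) / Fintype.card ι) ∧
        ∀ f ∈ F, avg μ f - f x ≤ 1 / 8) ∨
      (∃ f ∈ F, ∀ μ, IsProb μ → (∀ i, μ i ≤ (2 * Q.card : ℝ) / Fintype.card ι) →
        avg μ f < f x - 1 / 8) := by
    intro x
    rcases dichotomy hLc hLconv hLs hLne z x ((2 * Q.card : ℝ) / Fintype.card ι)
      (δ := 1 / 8) (by norm_num) with ⟨μ, h1, h2, h3⟩ | ⟨y, hy, h⟩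
    · left
      refine ⟨μ, h1, h2, ?_⟩
      rintro _ ⟨y, hy, rfl⟩
      exact h3 y hy
    · right
      exact ⟨fam z y, ⟨y, hy, rfl⟩, h⟩
  have hD : KLDich F := by
    intro π hπ x v β hv _
    rcases dichotomyKL hLc hLconv hLs hLne z hπ x (β := β) hv with ⟨μ, h1, h2, h3⟩ | ⟨y, hy, h⟩
    · left
      refine ⟨μ, h1, h2, ?_⟩
      rintro _ ⟨y, hy, rfl⟩
      exact h3 y hy
    · right
      exact ⟨fam z y, ⟨y, hy, rfl⟩, h⟩
  have hε : (0 : ℝ) < 1 / (64 * (s : ℝ)) := by positivity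
  have hε32 : 1 / (64 * (s : ℝ)) ≤ 1 / 32 := by
    rw [div_le_div_iff₀ (by positivity) (by norm_num)]
    nlinarith
  have hεs : 2 * (1 / (64 * (s : ℝ))) * s ≤ 1 / 8 := by
    have : 2 * (1 / (64 * (s : ℝ))) * s = 1 / 32 := by field_simp; norm_num
    rw [this]; norm_num
  have hlogP : 0 ≤ Real.log P.card := Real.log_natCast_nonneg _
  have hRHS : 0 ≤ powMult s (Real.log P.card) * Real.log P.card :=
    mul_nonneg (powMult_nonneg hs hlogP) hlogP
  have hQne : Q.Nonempty := by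
    obtain ⟨q, hq, _⟩ := hQ 0 hF.zero_mem
    exact ⟨q, hq⟩
  by_cases hne : Nonempty ι
  swap
  · rw [not_nonempty_iff] at hne
    simpa using hRHS
  have hc0 : Fintype.card ι ≠ 0 := Fintype.card_ne_zero
  have hQP : Q.card ≤ P.card := Finset.card_image_le
  by_cases hP1 : P.card = 1
  · have hQ1 : Q.card = 1 := by
      have := Finset.card_pos.mpr hQne
      omega
    have hsub : Fintype.card ι ≤ 1 := by
      refine Fintype.card_le_one_iff.mpr (fun a b => ?_)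
      by_contra hab
      obtain ⟨f, hf, hgap⟩ := hsep' a b hab
      obtain ⟨q, hq, hn1⟩ := hQ f hf
      obtain ⟨q', hq', hn2⟩ := hQ 0 hF.zero_mem
      have hqq : q = q' := by
        obtain ⟨q₀, h₀⟩ := Finset.card_eq_one.mp hQ1
        rw [h₀] at hq hq'
        rw [Finset.mem_singleton.mp hq, Finset.mem_singleton.mp hq']
      rw [← hqq] at hn2
      have e1 := abs_le.mp (hn1 a)
      have e2 := abs_le.mp (hn1 b)
      have e3 := abs_le.mp (hn2 a)
      have e4 := abs_le.mp (hn2 b)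
      simp only [Pi.zero_apply, zero_sub, neg_le_neg_iff] at e3 e4
      linarith [e1.1, e1.2, e2.1, e2.2, e3.1, e3.2, e4.1, e4.2]
    have hc : (Fintype.card ι : ℝ) ≤ 1 := by exact_mod_cast hsub
    have hc0' : (0 : ℝ) < Fintype.card ι := by exact_mod_cast Fintype.card_pos
    exact (Real.log_nonpos hc0'.le hc).trans hRHS
  have hP2 : 2 ≤ P.card := by
    have h1 : 1 ≤ Q.card := Finset.card_pos.mpr hQne
    omega
  obtain ⟨r, G, hr1, hb, hG, hend⟩ := power_numeric (c := Fintype.card ι) hs (a := Real.log P.card)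
    rfl hQP hP2 (Finset.card_pos.mpr hQne)
  exact hend (abstract_power_count hF hD hε hε32 hQ hsep' hdich s r G hr1 hεs hb hG) hc0

end Geom2

end Vale.Agent.Lib.P126
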