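import Vale.Agent.Lib.P126.Main

/-!
Test steps without loss of tolerance: the exponential certificate for a point that
lies outside the barycentres of a relative entropy ball, and the gain of a tilt at a net point.
-/

namespace Vale.Agent.Lib.P126

open Finset
open scoped Pointwise InnerProductSpace

section Calc

variable {ι : Type*} [Fintype ι]

lemma kl_self {π : ι → ℝ} (hπ : IsPosProb π) : kl π π = 0 := by
  unfold kl
  refine Finset.sum_eq_zero (fun i _ => ?_)
  rw [div_self (hπ.1 i).ne', Real.log_one, mul_zero]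

/-- The relative entropy of a tilt. -/
lemma kl_tilt_eq {π : ι → ℝ} (hπ : IsPosProb π) (g : ι → ℝ) :
    kl (tilt π g) π = avg (tilt π g) g - Real.log (mgf π g) := by
  have h := kl_tilt (isPosProb_tilt hπ g).isProb hπ g
  rw [kl_self (isPosProb_tilt hπ g)] at h
  linarith

/-- Jensen for the exponential sum. -/
lemma avg_le_log_mgf {π : ι → ℝ} (hπ : IsPosProb π) (g : ι → ℝ) :
    avg π g ≤ Real.log (mgf π g) := by
  have h := kl_tilt hπ.isProb hπ g
  rw [kl_self hπ] at h
  have h2 := kl_nonneg hπ.isProb (isPosProb_tilt hπ g)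
  linarith

/-- The variational inequality. -/
lemma avg_sub_log_mgf_le {μ π : ι → ℝ} (hμ : IsProb μ) (hπ : IsPosProb π) (g : ι → ℝ) :
    avg μ g - Real.log (mgf π g) ≤ kl μ π := by
  have h := kl_tilt hμ hπ g
  have h2 := kl_nonneg hμ (isPosProb_tilt hπ g)
  linarith

/-- The logarithm of the exponential sum vanishes at zero and is convex: a form of this. -/
lemma log_mgf_smul_le {π : ι → ℝ} (hπ : IsPosProb π) (g : ι → ℝ) {l : ℝ} (hl0 : 0 ≤ l)
    (hl1 : l ≤ 1) : Real.log (mgf π (l • g)) ≤ l * Real.log (mgf π g) := by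
  have hμ := isPosProb_tilt hπ (l • g)
  have h1 := kl_tilt_eq hπ (l • g)
  rw [avg_smul_right] at h1
  have h2 := avg_sub_log_mgf_le hμ.isProb hπ g
  have h3 := kl_nonneg hμ.isProb hπ
  nlinarith

/-- Monotonicity of the exponential sum. -/
lemma log_mgf_le_add {π g h : ι → ℝ} (hπ : IsPosProb π) {c : ℝ} (hgh : ∀ i, g i ≤ h i + c) :
    Real.log (mgf π g) ≤ Real.log (mgf π h) + c := by
  have h1 : mgf π g ≤ mgf π h * Real.exp c := by
    unfold mgf
    rw [Finset.sum_mul]
    refine Finset.sum_le_sum (fun i _ => ?_)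
    rw [mul_assoc, ← Real.exp_add]
    exact mul_le_mul_of_nonneg_left (Real.exp_le_exp.mpr (hgh i)) (hπ.1 i).le
  have h2 := Real.log_le_log (mgf_pos hπ g) h1
  rwa [Real.log_mul (mgf_pos hπ h).ne' (Real.exp_pos _).ne', Real.log_exp] at h2

lemma continuous_mgf_smul (π f : ι → ℝ) : Continuous (fun t : ℝ => mgf π (t • f)) := by
  unfold mgf
  refine continuous_finsetSum _ (fun i _ => ?_)
  simp only [Pi.smul_apply, smul_eq_mul]
  fun_prop

lemma continuous_avg_tilt {π : ι → ℝ} (hπ : IsPosProb π) (f : ι → ℝ) :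
    Continuous (fun t : ℝ => avg (tilt π (t • f)) f) := by
  unfold avg
  refine continuous_finsetSum _ (fun i _ => ?_)
  unfold tilt
  refine Continuous.mul (Continuous.div ?_ (continuous_mgf_smul π f) (fun t => (mgf_pos hπ _).ne'))
    continuous_const
  simp only [Pi.smul_apply, smul_eq_mul]
  fun_prop

/-- The exponential certificate. If every vector in a relative entropy ball has a smaller average
than `m`, and some point has value above `m`, then a tilt certifies this. -/
lemma exists_certificate {π f : ι → ℝ} (hπ : IsPosProb π) {x : ι} {v β : ℝ} (hv : 0 < v)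
    (hβ : 0 ≤ β) (h : ∀ μ, IsProb μ → kl μ π ≤ β → avg μ f < f x - v) :
    ∃ t : ℝ, 0 ≤ t ∧ β ≤ t * (f x - v) - Real.log (mgf π (t • f)) := by
  set m := f x - v with hm
  have hpx := hπ.1 x
  -- large tilts have large means
  obtain ⟨T, hT0, hT⟩ : ∃ T : ℝ, 0 < T ∧ m ≤ avg (tilt π (T • f)) f := by
    refine ⟨(- Real.log (π x)) / v + 1, ?_, ?_⟩
    · have hle : Real.log (π x) ≤ 0 := by
        refine Real.log_nonpos hpx.le ?_
        calc π x ≤ ∑ i, π i := Finset.single_le_sum (f := π) (fun i _ => (hπ.1 i).le) (Finset.mem_univ x)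
          _ = 1 := hπ.2
      have : 0 ≤ (- Real.log (π x)) / v := div_nonneg (by linarith) hv.le
      linarith
    · by_contra hcon
      push Not at hcon
      have hle : Real.log (π x) ≤ 0 := by
        refine Real.log_nonpos hpx.le ?_
        calc π x ≤ ∑ i, π i := Finset.single_le_sum (f := π) (fun i _ => (hπ.1 i).le) (Finset.mem_univ x)
          _ = 1 := hπ.2
      set T := (- Real.log (π x)) / v + 1 with hTdef
      have hT0 : 0 < T := by
        have : 0 ≤ (- Real.log (π x)) / v := div_nonneg (by linarith) hv.le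
        linarith
      have h1 := kl_tilt_eq hπ (T • f)
      rw [avg_smul_right] at h1
      have h2 := kl_nonneg (isPosProb_tilt hπ (T • f)).isProb hπ
      have h3 : Real.log (mgf π (T • f)) < T * m := by nlinarith
      have h4 : π x * Real.exp (T * f x) ≤ mgf π (T • f) := by
        unfold mgf
        have := Finset.single_le_sum (f := fun i => π i * Real.exp ((T • f) i))
          (fun i _ => mul_nonneg (hπ.1 i).le (Real.exp_pos _).le) (Finset.mem_univ x)
        simpa using this
      have h5 := Real.log_le_log (by positivity) h4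
      rw [Real.log_mul hpx.ne' (Real.exp_pos _).ne', Real.log_exp] at h5
      have h6 : T * v = - Real.log (π x) + v := by
        rw [hTdef]; field_simp
      have h7 : T * m = T * f x - T * v := by rw [hm]; ring
      nlinarith
  -- at zero the mean is small
  have h0 : avg (tilt π ((0 : ℝ) • f)) f < m := by
    rw [zero_smul, tilt_zero hπ]
    exact h π hπ.isProb (by rw [kl_self hπ]; exact hβ)
  -- intermediate value
  obtain ⟨t, ht, hmean⟩ := intermediate_value_Icc hT0.le
    (continuous_avg_tilt hπ f).continuousOn ⟨h0.le, hT⟩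
  refine ⟨t, ht.1, ?_⟩
  have hkl := kl_tilt_eq hπ (t • f)
  rw [avg_smul_right] at hkl
  simp only at hmean
  rw [hmean] at hkl
  by_contra hcon
  push Not at hcon
  have := h (tilt π (t • f)) (isPosProb_tilt hπ _).isProb (by rw [hkl]; exact hcon.le)
  rw [hmean] at this
  exact lt_irrefl _ this

/-- The gain of a tilt at a net point, with no loss of tolerance. -/
lemma test_gain {π μ f q : ι → ℝ} (hπ : IsPosProb π) (hμ : IsProb μ) {x : ι} {t u ε β : ℝ}
    (ht : 0 ≤ t) (hu : f x - avg μ f ≤ u) (hnear : ∀ i, |f i - q i| ≤ ε)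
    (hcert : β ≤ t * (f x - (u + 2 * ε)) - Real.log (mgf π (t • f))) :
    kl μ (tilt π (t • q)) ≤ kl μ π - β := by
  rw [kl_tilt hμ hπ, avg_smul_right]
  have h1 : avg μ f - avg μ q ≤ ε := by
    rw [← avg_sub_right]
    exact avg_le_of_le hμ (fun i => (le_abs_self _).trans (hnear i))
  have h2 : Real.log (mgf π (t • q)) ≤ Real.log (mgf π (t • f)) + t * ε := by
    refine log_mgf_le_add hπ (fun i => ?_)
    simp only [Pi.smul_apply, smul_eq_mul]
    have := (abs_le.mp (hnear i)).1
    nlinarith
  have h3 : t * (avg μ f - avg μ q) ≤ t * ε := mul_le_mul_of_nonneg_left h1 ht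
  have h4 : t * (f x - avg μ f) ≤ t * u := mul_le_mul_of_nonneg_left hu ht
  nlinarith

/-- Bounds on the size of a certified tilt. -/
lemma cert_bounds {π μ f : ι → ℝ} (hπ : IsPosProb π) (hμ : IsProb μ) {x : ι} {t u ε β R : ℝ}
    (ht : 0 ≤ t) (hβ : 0 < β) (hε : 0 < ε) (hu0 : 0 ≤ u) (hR : ∀ i, |f i| ≤ R)
    (hu : f x - avg μ f ≤ u)
    (hcert : β ≤ t * (f x - (u + 2 * ε)) - Real.log (mgf π (t • f))) :
    β ≤ t * (2 * R) ∧ t * (2 * ε) ≤ kl μ π := by
  constructor
  · have h1 := avg_le_log_mgf hπ (t • f)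
    rw [avg_smul_right] at h1
    have h2 : f x ≤ R := (le_abs_self _).trans (hR x)
    have h3 : -R ≤ avg π f := le_avg_of_le hπ.isProb (fun i => (abs_le.mp (hR i)).1)
    have h4 : t * (f x - (u + 2 * ε) - avg π f) ≤ t * (2 * R) := by
      refine mul_le_mul_of_nonneg_left ?_ ht
      nlinarith
    nlinarith
  · have h1 := avg_sub_log_mgf_le hμ hπ (t • f)
    rw [avg_smul_right] at h1
    have h2 : t * (f x - avg μ f) ≤ t * u := mul_le_mul_of_nonneg_left hu ht
    nlinarith

/-- Rounding of a certified tilt down by a factor at most two halves the gain at worst. -/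
lemma cert_round {π f : ι → ℝ} (hπ : IsPosProb π) {t t' m β : ℝ} (hβ : 0 ≤ β) (ht' : 0 ≤ t')
    (h1 : t' ≤ t) (h2 : t ≤ 2 * t') (hcert : β ≤ t * m - Real.log (mgf π (t • f))) :
    β / 2 ≤ t' * m - Real.log (mgf π (t' • f)) := by
  rcases ht'.eq_or_lt with h0 | hpos
  · have : t = 0 := by
      have : t ≤ 0 := by rw [← h0] at h2; linarith
      rw [← h0] at h1
      linarith
    subst this
    rw [zero_smul] at hcert
    have hm : mgf π (0 : ι → ℝ) = 1 := by
      unfold mgf; simp [hπ.2]
    rw [hm, Real.log_one] at hcert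
    have : β = 0 := by simp at hcert; linarith
    rw [← h0, zero_smul, hm, Real.log_one, this]
    simp
  · have htpos : 0 < t := by linarith
    set l := t' / t with hl
    have hl0 : 0 ≤ l := by positivity
    have hl1 : l ≤ 1 := by rw [hl, div_le_one htpos]; exact h1
    have hl2 : 1 / 2 ≤ l := by
      rw [hl, le_div_iff₀ htpos]; linarith
    have ht'eq : t' = l * t := by rw [hl]; field_simp
    have hs : t' • f = l • (t • f) := by rw [smul_smul, ← ht'eq]
    have h3 := log_mgf_smul_le hπ (t • f) hl0 hl1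
    rw [← hs] at h3
    have hR : 0 ≤ t * m - Real.log (mgf π (t • f)) := hβ.trans hcert
    have h4 : l * (t * m - Real.log (mgf π (t • f))) ≤ t' * m - Real.log (mgf π (t' • f)) := by
      have e : t' * m = l * (t * m) := by rw [ht'eq]; ring
      rw [e]
      nlinarith
    have h5 : (1 / 2) * (t * m - Real.log (mgf π (t • f))) ≤
        l * (t * m - Real.log (mgf π (t • f))) := mul_le_mul_of_nonneg_right hl2 hR
    linarith

/-- Pinsker type estimate, with constants sufficient here. -/
lemma avg_sub_avg_le_of_kl {μ π f : ι → ℝ} (hμ : IsProb μ) (hπ : IsPosProb π) {R η : ℝ}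
    (hη : 0 < η) (hηR : η * R ≤ 1) (hR : ∀ i, |f i| ≤ R) :
    avg μ f - avg π f ≤ kl μ π / η + η * R ^ 2 := by
  have hc : ∀ i, |(η • f) i| ≤ η * R := by
    intro i
    simp only [Pi.smul_apply, smul_eq_mul, abs_mul, abs_of_pos hη]
    exact mul_le_mul_of_nonneg_left (hR i) hη.le
  have h1 := kl_tilt_le hμ hπ hηR hc
  rw [avg_smul_right, avg_smul_right] at h1
  have h2 := kl_nonneg hμ (isPosProb_tilt hπ (η • f))
  have h3 : η * (avg μ f - avg π f) ≤ kl μ π + (η * R) ^ 2 := by nlinarith
  rw [div_add' _ _ _ hη.ne', le_div_iff₀ hη]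
  nlinarith

end Calc

end Vale.Agent.Lib.P126
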